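import Vale.Agent.P088.R2.H794.B.Spec
import Vale.Agent.P088.H109.EnX
import Vale.Agent.P088.H924.Orth

/-!
# P088, energy estimate over a general base for quasimodes (row B_EN)
-/

open MeasureTheory Set Filter Topology
open scoped ContDiff Matrix

noncomputable section

namespace Vale.Agent.P088.HY.Bd

open Vale.Agent.P088.LR Vale.Agent.P088.LR.B Vale.Agent.P088.LR.CF Vale.Agent.P088.H639
open Vale.Agent.P088.H109 Vale.Agent.P088.H884

variable {n : ℕ}

/-- Integration by parts, real functions, general tensor. -/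
theorem flux_real {Ω : Set (V n)} (hO : IsOpen Ω) (hb : Bornology.IsBounded Ω) {s : MF n}
    (hs : SmM s) (hss : ∀ x, (s x).IsSymm) {U R : V n → ℝ} (hU : ContDiff ℝ ∞ U)
    (hR : ContDiff ℝ ∞ R) (h0 : ∀ x ∈ frontier Ω, R x = 0) :
    rb Ω s U R = -∫ x in Ω, (dv s (oc U) x).re * R x := by
  have hG : ∀ i, ContDiff ℝ ∞ (fun x => ∑ j, (s x i j : ℂ) * pd j (oc U) x) := fun i =>
    ContDiff.sum fun j _ => (Complex.ofRealCLM.contDiff.comp (hs i j)).mul
      (LR.contDiff_pd (oc_contDiff hU) j)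
  have h := Vale.Agent.P088.H924.weak_flux hO hb hG (oc_contDiff hR)
    (fun x hx => by simp only [oc, h0 x hx, Complex.ofReal_zero])
  have e1 : ∫ x in Ω, ∑ i, (∑ j, (s x i j : ℂ) * pd j (oc U) x) * pd i (oc R) x =
      ((rb Ω s U R : ℝ) : ℂ) := by
    rw [← bl_oc hU hR]
    unfold bl
    refine integral_congr_ae (Filter.Eventually.of_forall fun x => ?_)
    simp only [Finset.sum_mul]
    rw [Finset.sum_comm]
    refine Finset.sum_congr rfl fun j _ => Finset.sum_congr rfl fun i _ => ?_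
    rw [(hss x).apply j i]
  have e2 : ∫ x in Ω, (∑ i, pd i (fun y => ∑ j, (s y i j : ℂ) * pd j (oc U) y) x) * oc R x =
      ((∫ x in Ω, (dv s (oc U) x).re * R x : ℝ) : ℂ) := by
    rw [← integral_complex_ofReal]
    refine integral_congr_ae (Filter.Eventually.of_forall fun x => ?_)
    have e3 := (dv_parts hs (oc_contDiff hU) x).1
    have e4 : rp (oc U) = U := by funext y; simp [rp]
    rw [e4] at e3
    show dv s (oc U) x * (R x : ℂ) = (((dv s (oc U) x).re * R x : ℝ) : ℂ)
    rw [Complex.ofReal_mul, ← e3]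
  rw [e1, e2] at h
  exact_mod_cast h

theorem pd_coord (i j : Fin n) (x : V n) :
    pd i (fun y : V n => y j) x = if i = j then 1 else 0 := by
  have h : HasFDerivAt (fun y : V n => y j) (ContinuousLinearMap.proj (R := ℝ) (φ := fun _ : Fin n => ℝ) j) x :=
    (ContinuousLinearMap.proj (R := ℝ) (φ := fun _ : Fin n => ℝ) j).hasFDerivAt
  unfold pd
  rw [h.fderiv]
  by_cases hij : i = j
  · subst hij; simp
  · simp [hij, Ne.symm hij]

/-- Poincaré inequality. -/
theorem poinc {Ω : Set (V n)} (hO : IsOpen Ω) (hb : Bornology.IsBounded Ω) (k : Fin n)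
    (hbox : ∀ x ∈ Ω, |x k| ≤ 1) {R : V n → ℝ}
    (hR : ContDiff ℝ ∞ R) (h0 : ∀ x ∈ frontier Ω, R x = 0) :
    ∫ x in Ω, R x ^ 2 ≤ 4 * ∫ x in Ω, ∑ i, pd i R x ^ 2 := by
  have hk : ContDiff ℝ ∞ (fun y : V n => y k) := contDiff_apply ℝ ℝ k
  have hG1 : ContDiff ℝ ∞ (fun y : V n => y k * R y) := hk.mul hR
  have hG : ∀ i, ContDiff ℝ ∞ (fun x => if i = k then oc (fun y : V n => y k * R y) x else 0) := by
    intro i
    by_cases hi : i = k
    · simp only [hi, if_true]
      exact oc_contDiff hG1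
    · simp only [hi, if_false]
      exact contDiff_const
  have h := Vale.Agent.P088.H924.weak_flux hO hb hG (oc_contDiff hR)
    (fun x hx => by simp only [oc, h0 x hx, Complex.ofReal_zero])
  have e1 : ∫ x in Ω, ∑ i, (if i = k then oc (fun y : V n => y k * R y) x else 0) *
      pd i (oc R) x = ((∫ x in Ω, x k * R x * pd k R x : ℝ) : ℂ) := by
    rw [← integral_complex_ofReal]
    refine integral_congr_ae (Filter.Eventually.of_forall fun x => ?_)
    simp only [ite_mul, zero_mul, Finset.sum_ite_eq', Finset.mem_univ, if_true, pd_oc hR]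
    push_cast
    rfl
  have hprod : ∀ x, pd k (fun y : V n => y k * R y) x = R x + x k * pd k R x := by
    intro x
    have h1 : DifferentiableAt ℝ (fun y : V n => y k) x := hk.differentiable (by simp) x
    have h2 : DifferentiableAt ℝ R x := hR.differentiable (by simp) x
    have h3 := pd_coord k k x
    unfold pd at h3 ⊢
    rw [fderiv_fun_mul h1 h2]
    simp only [add_apply, smul_apply, smul_eq_mul]
    rw [h3]
    simp
    ring
  have e2 : ∫ x in Ω, (∑ i, pd i (fun y => if i = k then oc (fun y : V n => y k * R y) y else 0) x)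
      * oc R x = ((∫ x in Ω, (R x + x k * pd k R x) * R x : ℝ) : ℂ) := by
    rw [← integral_complex_ofReal]
    refine integral_congr_ae (Filter.Eventually.of_forall fun x => ?_)
    have e3 : ∑ i, pd i (fun y => if i = k then oc (fun y : V n => y k * R y) y else 0) x =
        ((R x + x k * pd k R x : ℝ) : ℂ) := by
      rw [Finset.sum_eq_single k]
      · simp only [if_true]
        rw [← hprod x, ← pd_oc hG1]
      · intro i _ hi
        simp only [hi, if_false]
        unfold pd
        simp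
      · intro h; exact absurd (Finset.mem_univ k) h
    show (∑ i, pd i (fun y => if i = k then oc (fun y : V n => y k * R y) y else 0) x) * (R x : ℂ) = _
    rw [e3]
    push_cast
    rfl
  rw [e1, e2] at h
  have h' : ∫ x in Ω, x k * R x * pd k R x = -∫ x in Ω, (R x + x k * pd k R x) * R x := by
    exact_mod_cast h
  have hint : ∀ {f : V n → ℝ}, Continuous f → IntegrableOn f Ω := fun hf =>
    (hf.continuousOn.integrableOn_compact hb.isCompact_closure).mono_set subset_closure
  have hkc : Continuous fun y : V n => y k := hk.continuous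
  have c1 : Continuous fun x : V n => R x ^ 2 := hR.continuous.pow 2
  have c2 : Continuous fun x : V n => x k * R x * pd k R x :=
    (hkc.mul hR.continuous).mul (pdr_continuous hR k)
  have c3 : Continuous fun x : V n => ∑ i, pd i R x ^ 2 :=
    continuous_finsetSum _ fun i _ => (pdr_continuous hR i).pow 2
  have h2 : ∫ x in Ω, (R x + x k * pd k R x) * R x =
      (∫ x in Ω, R x ^ 2) + ∫ x in Ω, x k * R x * pd k R x := by
    rw [← integral_add (hint c1) (hint c2)]
    refine integral_congr_ae (Filter.Eventually.of_forall fun x => ?_)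
    simp only
    ring
  have h3 : -(1 / 2 * (∫ x in Ω, R x ^ 2) + 2 * ∫ x in Ω, ∑ i, pd i R x ^ 2) ≤
      2 * ∫ x in Ω, x k * R x * pd k R x := by
    rw [← integral_const_mul, ← integral_const_mul, ← integral_const_mul,
      ← integral_add ((hint c1).const_mul _) ((hint c3).const_mul _), ← integral_neg]
    refine setIntegral_mono_on (((hint c1).const_mul _).add ((hint c3).const_mul _)).neg
      ((hint c2).const_mul _) hO.measurableSet fun x hx => ?_
    have h4 : pd k R x ^ 2 ≤ ∑ i, pd i R x ^ 2 :=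
      Finset.single_le_sum (f := fun i => pd i R x ^ 2) (fun i _ => sq_nonneg _)
        (Finset.mem_univ k)
    have h5 : x k ^ 2 ≤ 1 := by
      have := hbox x hx
      rw [← sq_abs]
      nlinarith [abs_nonneg (x k)]
    have h6 : x k ^ 2 * pd k R x ^ 2 ≤ 1 * pd k R x ^ 2 :=
      mul_le_mul_of_nonneg_right h5 (sq_nonneg _)
    nlinarith [sq_nonneg (R x + 2 * (x k * pd k R x))]
  linarith

/-- Pointwise inequality. -/
theorem ptq_ineq {m : ℝ} (hm : 0 < m) (S T : Matrix (Fin n) (Fin n) ℝ) (hT : T.IsSymm)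
    (hSs : S.IsSymm) (hS : ∀ b : Fin n → ℝ, m * ∑ i, b i ^ 2 ≤ ∑ i, ∑ j, S i j * b i * b j)
    (hs : ∀ i j, |T i j - S i j| ≤ m / (2 * (n + 1))) (a b : Fin n → ℝ) :
    -((4 / m) * ∑ i, (∑ j, (T i j - S i j) * a j) ^ 2) + (m / 4) * ∑ i, b i ^ 2 ≤
      2 * ∑ i, ∑ j, (T i j - S i j) * a i * b j + ∑ i, ∑ j, T i j * b i * b j := by
  have h1 := ptx_low hm S T hS hs b
  have e : ∑ i, ∑ j, (T i j - S i j) * a i * b j =
      ∑ i, (∑ j, (T i j - S i j) * a j) * b i := by
    rw [Finset.sum_comm]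
    refine Finset.sum_congr rfl fun j _ => ?_
    rw [Finset.sum_mul]
    refine Finset.sum_congr rfl fun i _ => ?_
    rw [hT.apply i j, hSs.apply i j]
  have h2 : -((4 / m) * ∑ i, (∑ j, (T i j - S i j) * a j) ^ 2) - (m / 4) * ∑ i, b i ^ 2 ≤
      2 * ∑ i, (∑ j, (T i j - S i j) * a j) * b i := by
    rw [Finset.mul_sum, Finset.mul_sum, Finset.mul_sum, ← Finset.sum_neg_distrib,
      ← Finset.sum_sub_distrib]
    refine Finset.sum_le_sum fun i _ => ?_
    have h3 : 0 ≤ (1 / (4 * m)) * (4 * (∑ j, (T i j - S i j) * a j) + m * b i) ^ 2 := by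
      positivity
    have h4 : (1 / (4 * m)) * (4 * (∑ j, (T i j - S i j) * a j) + m * b i) ^ 2 =
        (4 / m) * (∑ j, (T i j - S i j) * a j) ^ 2 +
          2 * ((∑ j, (T i j - S i j) * a j) * b i) + (m / 4) * b i ^ 2 := by
      field_simp
      ring
    linarith
  rw [e]
  linarith

theorem dvc {s : MF n} (hs : SmM s) {U : V n → ℂ} (hU : ContDiff ℝ ∞ U) :
    Continuous (dv s U) := by
  unfold dv
  refine continuous_finsetSum _ fun i _ => ?_
  exact (LR.contDiff_pd (ContDiff.sum fun j _ => (Complex.ofRealCLM.contDiff.comp (hs i j)).mul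
      (LR.contDiff_pd hU j)) i).continuous

/-- Every competitor of `U` has almost the energy of `U`. -/
theorem rbq_lower {Ω : Set (V n)} (hO : IsOpen Ω) (hb : Bornology.IsBounded Ω) (k : Fin n)
    (hbox : ∀ x ∈ Ω, |x k| ≤ 1) {s t : MF n}
    {m : ℝ} (hm : 0 < m) (hs : SmM s)
    (hss : ∀ x, (s x).IsSymm)
    (hlow : ∀ x ∈ Ω, ∀ b : Fin n → ℝ, m * ∑ i, b i ^ 2 ≤ ∑ i, ∑ j, s x i j * b i * b j)
    (ht : ∀ i j, Continuous fun x => t x i j) (hsym : ∀ x, (t x).IsSymm)
    (hsm : ∀ x ∈ Ω, ∀ i j, |t x i j - s x i j| ≤ m / (2 * (n + 1)))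
    {U v : V n → ℝ} (hU : ContDiff ℝ ∞ U) (hv : ContDiff ℝ ∞ v)
    (hvU : ∀ x ∈ frontier Ω, v x = U x) :
    rb Ω t U U - (4 / m) * (∫ x in Ω, qfx s t U x) - (16 / m) * ∫ x in Ω, (dv s (oc U) x).re ^ 2
      ≤ rb Ω t v v := by
  have hsc : ∀ i j, Continuous fun x => s x i j := fun i j => (hs i j).continuous
  have hR : ContDiff ℝ ∞ (fun y => v y + (-1) * U y) := hv.add (contDiff_const.mul hU)
  have hRf : ∀ x ∈ frontier Ω, (fun y => v y + (-1) * U y) x = 0 := fun x hx => by
    simp only; rw [hvU x hx]; ring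
  have hR0 := flux_real hO hb hs hss hU hR hRf
  have hP := poinc hO hb k hbox hR hRf
  have htc : ∀ i j, Continuous fun x => (fun x => t x - s x : MF n) x i j := fun i j =>
    (ht i j).sub (hsc i j)
  have e0 : v = fun y => U y + (v y + (-1) * U y) := by funext y; ring
  have e1 : rb Ω t v v = rb Ω t U U + 2 * rb Ω (fun x => t x - s x) U (fun y => v y + (-1) * U y) +
      2 * rb Ω s U (fun y => v y + (-1) * U y) +
      rb Ω t (fun y => v y + (-1) * U y) (fun y => v y + (-1) * U y) := by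
    rw [rb_subx hb hsc ht hU hR]
    have h := rb_sq_add hb ht hsym hU hR
    rw [← e0] at h
    rw [h]
    ring
  have hint : ∀ {f : V n → ℝ}, Continuous f → IntegrableOn f Ω := fun hf =>
    (hf.continuousOn.integrableOn_compact hb.isCompact_closure).mono_set subset_closure
  have cR2 : Continuous fun x : V n => (fun y => v y + (-1) * U y) x ^ 2 := hR.continuous.pow 2
  have cF : Continuous fun x => (dv s (oc U) x).re :=
    Complex.continuous_re.comp (dvc hs (oc_contDiff hU))
  have cF2 : Continuous fun x => (dv s (oc U) x).re ^ 2 := cF.pow 2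
  have cFR : Continuous fun x => (dv s (oc U) x).re * (fun y => v y + (-1) * U y) x :=
    cF.mul hR.continuous
  have cD : Continuous fun x : V n => ∑ i, pd i (fun y => v y + (-1) * U y) x ^ 2 :=
    continuous_finsetSum _ fun i _ => (pdr_continuous hR i).pow 2
  have key : (-(4 / m)) * (∫ x in Ω, qfx s t U x) +
      (m / 4) * (∫ x in Ω, ∑ i, pd i (fun y => v y + (-1) * U y) x ^ 2) ≤
      2 * rb Ω (fun x => t x - s x) U (fun y => v y + (-1) * U y) +
        rb Ω t (fun y => v y + (-1) * U y) (fun y => v y + (-1) * U y) := by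
    unfold rb
    rw [← integral_const_mul, ← integral_const_mul, ← integral_const_mul,
      ← integral_add ((rb_integrable hb htc hU hR).const_mul 2) (rb_integrable hb ht hR hR),
      ← integral_add ((qfx_integrable hb hsc ht hU).const_mul (-(4 / m)))
        ((hint cD).const_mul (m / 4))]
    refine setIntegral_mono_on (((qfx_integrable hb hsc ht hU).const_mul (-(4 / m))).add
        ((hint cD).const_mul (m / 4)))
      (((rb_integrable hb htc hU hR).const_mul 2).add (rb_integrable hb ht hR hR))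
      hO.measurableSet fun x hx => ?_
    have := ptq_ineq hm (s x) (t x) (hsym x) (hss x) (hlow x hx) (hsm x hx) (fun i => pd i U x)
      (fun i => pd i (fun y => v y + (-1) * U y) x)
    rw [← neg_mul] at this
    exact this
  have key2 : 2 * (∫ x in Ω, (dv s (oc U) x).re * (fun y => v y + (-1) * U y) x) ≤
      (16 / m) * (∫ x in Ω, (dv s (oc U) x).re ^ 2) +
        (m / 16) * ∫ x in Ω, (fun y => v y + (-1) * U y) x ^ 2 := by
    rw [← integral_const_mul, ← integral_const_mul, ← integral_const_mul,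
      ← integral_add ((hint cF2).const_mul _) ((hint cR2).const_mul _)]
    refine setIntegral_mono_on ((hint cFR).const_mul _)
      (((hint cF2).const_mul _).add ((hint cR2).const_mul _)) hO.measurableSet fun x _ => ?_
    have h3 : 0 ≤ (1 / (16 * m)) * (16 * (dv s (oc U) x).re - m * (v x + (-1) * U x)) ^ 2 := by
      positivity
    have h4 : (1 / (16 * m)) * (16 * (dv s (oc U) x).re - m * (v x + (-1) * U x)) ^ 2 =
        (16 / m) * (dv s (oc U) x).re ^ 2 + (m / 16) * (v x + (-1) * U x) ^ 2 -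
          2 * ((dv s (oc U) x).re * (v x + (-1) * U x)) := by
      field_simp
      ring
    simp only
    linarith
  have key3 : (m / 16) * (∫ x in Ω, (fun y => v y + (-1) * U y) x ^ 2) ≤
      (m / 4) * ∫ x in Ω, ∑ i, pd i (fun y => v y + (-1) * U y) x ^ 2 := by
    have := mul_le_mul_of_nonneg_left hP (by positivity : 0 ≤ m / 16)
    linarith
  rw [e1, hR0]
  linarith

/-- **Energy estimate for a real quasimode.** -/
theorem enq_real {Ω : Set (V n)} (hO : IsOpen Ω) (hb : Bornology.IsBounded Ω) (k : Fin n)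
    (hbox : ∀ x ∈ Ω, |x k| ≤ 1) {s t : MF n}
    {m : ℝ} (hm : 0 < m) (hs : SmM s) (hss : ∀ x, (s x).IsSymm)
    (hlow : ∀ x ∈ Ω, ∀ b : Fin n → ℝ, m * ∑ i, b i ^ 2 ≤ ∑ i, ∑ j, s x i j * b i * b j)
    (ht : ∀ i j, Continuous fun x => t x i j) (hsym : ∀ x, (t x).IsSymm)
    (hsm : ∀ x ∈ Ω, ∀ i j, |t x i j - s x i j| ≤ m / (2 * (n + 1)))
    (hSE : SE Ω s t) {U : V n → ℝ} (hU : ContDiff ℝ ∞ U) :
    |rb Ω (fun x => t x - s x) U U| ≤ (4 / m) * (∫ x in Ω, qfx s t U x) +
      (16 / m) * ∫ x in Ω, (dv s (oc U) x).re ^ 2 := by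
  have hsc : ∀ i j, Continuous fun x => s x i j := fun i j => (hs i j).continuous
  have hsz : ∀ x ∈ Ω, ∀ i j, |s x i j - s x i j| ≤ m / (2 * (n + 1)) := fun x _ i j => by
    rw [sub_self, abs_zero]; positivity
  have hz : ∫ x in Ω, qfx s s U x = 0 := by
    unfold qfx
    simp
  have hq : 0 ≤ ∫ x in Ω, qfx s t U x :=
    integral_nonneg fun x => by
      unfold qfx
      exact Finset.sum_nonneg fun i _ => sq_nonneg _
  have lt' : ∀ e ∈ {e | ∃ u : V n → ℝ, ContDiff ℝ ∞ u ∧ (∀ x ∈ frontier Ω, u x = U x) ∧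
      e = rb Ω t u u}, rb Ω t U U - (4 / m) * (∫ x in Ω, qfx s t U x) -
        (16 / m) * (∫ x in Ω, (dv s (oc U) x).re ^ 2) ≤ e := by
    rintro e ⟨u, hu, huU, rfl⟩
    exact rbq_lower hO hb k hbox hm hs hss hlow ht hsym hsm hU hu huU
  have ls' : ∀ e ∈ {e | ∃ u : V n → ℝ, ContDiff ℝ ∞ u ∧ (∀ x ∈ frontier Ω, u x = U x) ∧
      e = rb Ω s u u}, rb Ω s U U -
        (16 / m) * (∫ x in Ω, (dv s (oc U) x).re ^ 2) ≤ e := by
    rintro e ⟨u, hu, huU, rfl⟩
    have := rbq_lower hO hb k hbox hm hs hss hlow hsc hss hsz hU hu huU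
    rw [hz, mul_zero, sub_zero] at this
    exact this
  have h1 : rb Ω t U U - (4 / m) * (∫ x in Ω, qfx s t U x) -
        (16 / m) * (∫ x in Ω, (dv s (oc U) x).re ^ 2) ≤ En Ω t U :=
    le_csInf ⟨_, U, hU, fun _ _ => rfl, rfl⟩ lt'
  have h2 : rb Ω s U U - (16 / m) * (∫ x in Ω, (dv s (oc U) x).re ^ 2) ≤ En Ω s U :=
    le_csInf ⟨_, U, hU, fun _ _ => rfl, rfl⟩ ls'
  have h3 : En Ω t U ≤ rb Ω t U U := csInf_le ⟨_, lt'⟩ ⟨U, hU, fun _ _ => rfl, rfl⟩
  have h4 : En Ω s U ≤ rb Ω s U U := csInf_le ⟨_, ls'⟩ ⟨U, hU, fun _ _ => rfl, rfl⟩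
  have h5 := hSE U hU
  have h6 : 0 ≤ (4 / m) * (∫ x in Ω, qfx s t U x) := mul_nonneg (by positivity) hq
  rw [rb_subx hb hsc ht hU hU, abs_le]
  constructor <;> linarith

theorem rowBEN : RowBEN := by
  intro n μ hμ
  refine ⟨(4 * n + 16) / μ, by positivity, ?_⟩
  intro ρ hρ s t hs ht hsp htp hel hsm hSE U hU
  have hO : IsOpen (Om ρ) := isOpen_lt continuous_const hρ.sm.continuous
  have hb := Om_bounded hρ
  have htc : ∀ i j, Continuous fun x => t x i j := fun i j => (ht i j).continuous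
  have hsc : ∀ i j, Continuous fun x => s x i j := fun i j => (hs i j).continuous
  have hss : ∀ x, (s x).IsSymm := fun x => by
    have h := (hsp x).1
    rw [Matrix.IsHermitian, Matrix.conjTranspose_eq_transpose_of_trivial] at h
    exact h
  have hts : ∀ x, (t x).IsSymm := fun x => by
    have h := (htp x).1
    rw [Matrix.IsHermitian, Matrix.conjTranspose_eq_transpose_of_trivial] at h
    exact h
  have hcr : ∀ j, Continuous fun x => ‖pd j U x‖ := fun j => (pd_continuous hU j).norm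
  have hI1 : 0 ≤ ∫ x in Om ρ, ∑ i, ∑ j, |t x i j - s x i j| ^ 2 * ‖pd j U x‖ ^ 2 :=
    integral_nonneg fun x => Finset.sum_nonneg fun i _ => Finset.sum_nonneg fun j _ => by
      positivity
  have hI2 : 0 ≤ ∫ x in Om ρ, ‖dv s U x‖ ^ 2 := integral_nonneg fun x => by positivity
  rcases Nat.eq_zero_or_pos n with hn | hn
  · subst hn
    have : bl (Om ρ) (fun x => t x - s x) U (fun x => (starRingEnd ℂ) (U x)) = 0 := by
      unfold bl
      simp
    rw [this, norm_zero]
    positivity
  · have k : Fin n := ⟨0, hn⟩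
    have hbox : ∀ x ∈ Om ρ, |x k| ≤ 1 := by
      intro x hx
      have hc : x ∈ core n := by
        by_contra h
        have h1 : 0 < ρ x := hx
        rw [hρ.off x h] at h1
        linarith
      have := hc k
      rw [abs_le]
      constructor <;> linarith
    have hlow : ∀ x ∈ Om ρ, ∀ b : Fin n → ℝ, μ * ∑ i, b i ^ 2 ≤ ∑ i, ∑ j, s x i j * b i * b j :=
      fun x _ b => hel.1 x b
    have r1 := enq_real hO hb k hbox hμ hs hss hlow htc hts hsm hSE (rp_contDiff hU)
    have r2 := enq_real hO hb k hbox hμ hs hss hlow htc hts hsm hSE (mp_contDiff hU)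
    have hhc : ∀ i j, Continuous fun x => (fun x => t x - s x : MF n) x i j := fun i j =>
      (htc i j).sub (hsc i j)
    have hhs : ∀ x, (t x - s x).IsSymm := fun x => (hts x).sub (hss x)
    rw [bl_conj hb hhc hhs hU, Complex.norm_real, Real.norm_eq_abs]
    have hint : ∀ {f : V n → ℝ}, Continuous f → IntegrableOn f (Om ρ) := fun hf =>
      (hf.continuousOn.integrableOn_compact hb.isCompact_closure).mono_set subset_closure
    have hc1 : Continuous (fun x => ∑ i, ∑ j, |t x i j - s x i j| ^ 2 * ‖pd j U x‖ ^ 2) := by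
      refine continuous_finsetSum _ fun i _ => continuous_finsetSum _ fun j _ => ?_
      exact (((htc i j).sub (hsc i j)).abs.pow 2).mul ((hcr j).pow 2)
    have u1 := rp_contDiff hU
    have u2 := mp_contDiff hU
    have hle : ∫ x in Om ρ, (qfx s t (rp U) x + qfx s t (mp U) x) ≤
        ∫ x in Om ρ, n * ∑ i, ∑ j, |t x i j - s x i j| ^ 2 * ‖pd j U x‖ ^ 2 := by
      refine setIntegral_mono_on
        ((qfx_integrable hb hsc htc u1).add (qfx_integrable hb hsc htc u2))
        ((hint hc1).const_mul _) hO.measurableSet fun x _ => ?_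
      have q1 := qfx_le s t (rp U) x
      have q2 := qfx_le s t (mp U) x
      have e : ∑ i, ∑ j, |t x i j - s x i j| ^ 2 * ‖pd j U x‖ ^ 2 =
          ∑ i, ∑ j, |t x i j - s x i j| ^ 2 * pd j (rp U) x ^ 2 +
          ∑ i, ∑ j, |t x i j - s x i j| ^ 2 * pd j (mp U) x ^ 2 := by
        rw [← Finset.sum_add_distrib]
        refine Finset.sum_congr rfl fun i _ => ?_
        rw [← Finset.sum_add_distrib]
        refine Finset.sum_congr rfl fun j _ => ?_
        rw [pd_rp (hU.differentiable (by simp) x), pd_mp (hU.differentiable (by simp) x),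
          ← Complex.normSq_eq_norm_sq, Complex.normSq_apply]
        ring
      rw [e, mul_add]
      linarith
    rw [integral_add (qfx_integrable hb hsc htc u1) (qfx_integrable hb hsc htc u2),
      integral_const_mul] at hle
    have hF1 : ∀ x, (dv s (oc (rp U)) x).re = (dv s U x).re := fun x => by
      rw [(dv_parts hs hU x).1, Complex.ofReal_re]
    have hF2 : ∀ x, (dv s (oc (mp U)) x).re = (dv s U x).im := fun x => by
      rw [(dv_parts hs hU x).2, Complex.ofReal_re]
    simp only [hF1] at r1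
    simp only [hF2] at r2
    have cdv := dvc hs hU
    have hsum : (∫ x in Om ρ, (dv s U x).re ^ 2) + (∫ x in Om ρ, (dv s U x).im ^ 2) =
        ∫ x in Om ρ, ‖dv s U x‖ ^ 2 := by
      have c1 : Continuous fun x => (dv s U x).re ^ 2 := (Complex.continuous_re.comp cdv).pow 2
      have c2 : Continuous fun x => (dv s U x).im ^ 2 := (Complex.continuous_im.comp cdv).pow 2
      rw [← integral_add (hint c1) (hint c2)]
      refine integral_congr_ae (Filter.Eventually.of_forall fun x => ?_)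
      simp only
      rw [← Complex.normSq_eq_norm_sq, Complex.normSq_apply]
      ring
    have hm0 : 0 ≤ 4 / μ := by positivity
    have h7 := mul_le_mul_of_nonneg_left hle hm0
    calc |rb (Om ρ) (fun x => t x - s x) (rp U) (rp U) +
          rb (Om ρ) (fun x => t x - s x) (mp U) (mp U)|
        ≤ |rb (Om ρ) (fun x => t x - s x) (rp U) (rp U)| +
          |rb (Om ρ) (fun x => t x - s x) (mp U) (mp U)| := abs_add_le _ _
      _ ≤ ((4 / μ) * (∫ x in Om ρ, qfx s t (rp U) x) +
            (16 / μ) * ∫ x in Om ρ, (dv s U x).re ^ 2) +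
          ((4 / μ) * (∫ x in Om ρ, qfx s t (mp U) x) +
            (16 / μ) * ∫ x in Om ρ, (dv s U x).im ^ 2) := add_le_add r1 r2
      _ = (4 / μ) * ((∫ x in Om ρ, qfx s t (rp U) x) + ∫ x in Om ρ, qfx s t (mp U) x) +
            (16 / μ) * ∫ x in Om ρ, ‖dv s U x‖ ^ 2 := by rw [← hsum]; ring
      _ ≤ (4 / μ) * (n * ∫ x in Om ρ, ∑ i, ∑ j, |t x i j - s x i j| ^ 2 * ‖pd j U x‖ ^ 2) +
            (16 / μ) * ∫ x in Om ρ, ‖dv s U x‖ ^ 2 := by linarith
      _ ≤ _ := by
        have e1 : (4 * (n : ℝ) + 16) / μ *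
            ((∫ x in Om ρ, ∑ i, ∑ j, |t x i j - s x i j| ^ 2 * ‖pd j U x‖ ^ 2) +
              ∫ x in Om ρ, ‖dv s U x‖ ^ 2) =
            (4 / μ) * (n * ∫ x in Om ρ, ∑ i, ∑ j, |t x i j - s x i j| ^ 2 * ‖pd j U x‖ ^ 2) +
            (16 / μ) * (∫ x in Om ρ, ‖dv s U x‖ ^ 2) +
            ((16 / μ) * (∫ x in Om ρ, ∑ i, ∑ j, |t x i j - s x i j| ^ 2 * ‖pd j U x‖ ^ 2) +
              (4 * n / μ) * ∫ x in Om ρ, ‖dv s U x‖ ^ 2) := by ring
        rw [e1]
        have e2 : 0 ≤ (16 / μ) * (∫ x in Om ρ, ∑ i, ∑ j, |t x i j - s x i j| ^ 2 * ‖pd j U x‖ ^ 2) +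
              (4 * n / μ) * ∫ x in Om ρ, ‖dv s U x‖ ^ 2 := by positivity
        linarith

end Vale.Agent.P088.HY.Bd
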