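import Vale.Agent.P088.R2.H420.Weak

/-!
# P088, row DIR: the Dirichlet problem on the unit ball
-/

open MeasureTheory Set Filter Topology
open scoped ContDiff Matrix RealInnerProductSpace

noncomputable section

namespace Vale.Agent.P088.HY.DIR

open Vale.Agent.P088.LR

variable {n : ℕ}

theorem T1.memLp {f : V n → ℝ} (h : T1 f) : MemLp f 2 (mu n) :=
  h.sm.continuous.memLp_of_hasCompactSupport h.cs

theorem comp_memLp (U : LL n) (o : Option (Fin n)) : MemLp (fun x => U x o) 2 (mu n) := by
  refine MemLp.of_le (Lp.memLp U) ?_ (Eventually.of_forall fun x => ?_)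
  · exact (EuclideanSpace.proj (𝕜 := ℝ) o).continuous.comp_aestronglyMeasurable
      (Lp.aestronglyMeasurable U)
  · rw [Real.norm_eq_abs]
    cases o with
    | none => exact abs_none_le _
    | some i => exact abs_some_le _ i

theorem integrable_comp_mul (U : LL n) (o : Option (Fin n)) {f : V n → ℝ} (h : T1 f) :
    Integrable (fun x => U x o * f x) (mu n) :=
  MemLp.integrable_mul (comp_memLp U o) h.memLp

/-- the test element for the weak gradient -/
theorem zt_memLp {φ : V n → ℝ} (h : T1 φ) (i : Fin n) :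
    MemLp (fun x => mk (rr x * LR.pd i φ x) (Pi.single i (φ x))) 2 (mu n) := by
  refine Continuous.memLp_of_hasCompactSupport ?_ ?_
  · refine continuous_mk (contDiff_rr.continuous.mul (h.pd i).sm.continuous) fun j => ?_
    by_cases hj : j = i
    · subst hj; simpa using h.sm.continuous
    · simpa [Pi.single_apply, hj] using continuous_const
  · refine HasCompactSupport.intro (K := tsupport φ) h.cs fun x hx => ?_
    have h1 : φ x = 0 := image_eq_zero_of_notMem_tsupport hx
    have h2 : LR.pd i φ x = 0 :=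
      image_eq_zero_of_notMem_tsupport fun h' => hx (tsupport_fderiv_apply_subset ℝ _ h')
    ext o
    cases o with
    | none => simp [h2]
    | some j => simp [h1]

theorem inner_zt {φ : V n → ℝ} (h : T1 φ) (i : Fin n) (U : LL n) :
    ⟪(zt_memLp h i).toLp _, U⟫ =
      ∫ x, (rr x * U x none * LR.pd i φ x + U x (some i) * φ x) ∂(mu n) := by
  rw [L2.inner_def]
  refine integral_congr_ae ?_
  filter_upwards [MemLp.coeFn_toLp (zt_memLp h i)] with x hx
  rw [hx, inner_eq]
  simp only [mk_none, mk_some]
  rw [Finset.sum_eq_single i]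
  · simp; ring
  · intro j _ hj; simp [hj]
  · simp

theorem weak_grad {φ : V n → ℝ} (h : T1 φ) (i : Fin n) {U : LL n} (hU : U ∈ KK n) :
    ∫ x, (rr x * U x none * LR.pd i φ x + U x (some i) * φ x) ∂(mu n) = 0 := by
  rw [← inner_zt h i]
  refine KK_induction (P := fun U => ⟪(zt_memLp h i).toLp _, U⟫ = 0) ?_ ?_ hU
  · exact isClosed_eq (continuous_const.inner continuous_id) continuous_const
  · intro ψ hψ
    rw [inner_zt h]
    have e1 : ∫ x, (rr x * (J hψ) x none * LR.pd i φ x + (J hψ) x (some i) * φ x) ∂(mu n) =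
        ∫ x, (ψ x * LR.pd i φ x + LR.pd i ψ x * φ x) ∂(mu n) := by
      refine integral_congr_ae ?_
      filter_upwards [J_coe hψ, ae_restrict_mem isOpen_Bn.measurableSet] with x hx hB
      rw [hx]
      have hr := (rr_pos hB).ne'
      simp only [jet, mk_none, mk_some]
      field_simp
    rw [e1]
    have h1 : T1 fun x => ψ x * LR.pd i φ x := T1.mul hψ.sm.contDiffOn (h.pd i)
    have h2 : T1 fun x => LR.pd i ψ x * φ x := T1.mul (hψ.pd i).sm.contDiffOn h
    rw [integral_add h1.integrable.restrict h2.integrable.restrict, integral_mu_T1 h1,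
      integral_mu_T1 h2, ibp hψ.sm.contDiffOn h i]
    ring

/-- `∑_j s_ij ∂_j f` -/
def gg (s : MF n) (f : V n → ℝ) (i : Fin n) (x : V n) : ℝ := ∑ j, s x i j * LR.pd j f x

theorem gg_contDiffOn {s : MF n} (hs : SmM s) {f : V n → ℝ} (hf : ContDiffOn ℝ ∞ f (Bn n))
    (i : Fin n) : ContDiffOn ℝ ∞ (gg s f i) (Bn n) := by
  unfold gg
  exact ContDiffOn.sum fun j _ => (hs i j).contDiffOn.mul (pd_contDiffOn isOpen_Bn hf j)

theorem gg_T1 {s : MF n} (hs : SmM s) {φ : V n → ℝ} (h : T1 φ) (i : Fin n) : T1 (gg s φ i) :=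
  T1.sum _ fun j _ => T1.mul (hs i j).contDiffOn (h.pd j)

/-- divergence form -/
theorem div_gg {s : MF n} (hs : SmM s)
    (hdv : ∀ x ∈ Bn n, ∀ j, ∑ i, LR.pd i (fun y => s y i j) x = 0) {f : V n → ℝ}
    (hf : ContDiffOn ℝ ∞ f (Bn n)) {x : V n} (hx : x ∈ Bn n) :
    ∑ i, LR.pd i (gg s f i) x = Lv s f x := by
  have h1 : ∀ i, LR.pd i (gg s f i) x =
      ∑ j, (LR.pd i (fun y => s y i j) x * LR.pd j f x + s x i j * LR.pd i (LR.pd j f) x) := by
    intro i
    have hd : ∀ j, HasFDerivAt (fun y => s y i j * LR.pd j f y)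
        (s x i j • fderiv ℝ (LR.pd j f) x + LR.pd j f x • fderiv ℝ (fun y => s y i j) x) x := by
      intro j
      have a1 : DifferentiableAt ℝ (fun y => s y i j) x := (hs i j).differentiable (by simp) x
      have a2 : DifferentiableAt ℝ (LR.pd j f) x :=
        ((pd_contDiffOn isOpen_Bn hf j x hx).contDiffAt (isOpen_Bn.mem_nhds hx)).differentiableAt
          (by simp)
      exact a1.hasFDerivAt.mul a2.hasFDerivAt
    have hs2 : HasFDerivAt (gg s f i) _ x := HasFDerivAt.fun_sum fun j _ => hd j
    unfold LR.pd at hs2 ⊢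
    rw [hs2.fderiv]
    simp only [_root_.sum_apply, _root_.add_apply, _root_.smul_apply, smul_eq_mul]
    refine Finset.sum_congr rfl fun j _ => ?_
    ring
  simp only [h1, Finset.sum_add_distrib]
  have h2 : ∑ i, ∑ j, LR.pd i (fun y => s y i j) x * LR.pd j f x = 0 := by
    rw [Finset.sum_comm]
    refine Finset.sum_eq_zero fun j _ => ?_
    rw [← Finset.sum_mul, hdv x hx j, zero_mul]
  rw [h2, zero_add]
  rfl

theorem op2_eq (s : MF n) (f : V n → ℝ) (x : V n) :
    op2 (Pi.basisFun ℝ (Fin n)) (fun i j x => s x i j) (fun _ _ => 0) (fun _ => 0) f x = Lv s f x := by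
  have h : ∀ i (f : V n → ℝ), db (⇑(Pi.basisFun ℝ (Fin n))) i f = LR.pd i f := by
    intro i f
    funext x
    simp [db, LR.pd]
  simp [op2, h, Lv]

/-- weak solution -/
theorem weak_Lv {s : MF n} {ε : ℝ} (hb : Bd s ε) (hε : ε ≤ 1) (hs : SmM s)
    (hdv : ∀ x ∈ Bn n, ∀ j, ∑ i, LR.pd i (fun y => s y i j) x = 0) {U : LL n} (hU : U ∈ KK n)
    {φ : V n → ℝ} (h : T1 φ) :
    ⟪TT hb hε U, J h⟫ = - ∫ x, rr x * U x none * Lv s φ x ∂(mu n) := by
  rw [inner_TT]
  have e1 : ∫ x, ∑ i, ∑ j, s x i j * U x (some i) * (J h) x (some j) ∂(mu n) =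
      ∫ x, ∑ i, U x (some i) * gg s φ i x ∂(mu n) := by
    refine integral_congr_ae ?_
    filter_upwards [J_coe h] with x hx
    rw [hx]
    refine Finset.sum_congr rfl fun i _ => ?_
    simp only [gg, jet, mk_some, Finset.mul_sum]
    refine Finset.sum_congr rfl fun j _ => ?_
    ring
  have hI : ∀ i, Integrable (fun x => rr x * U x none * LR.pd i (gg s φ i) x) (mu n) := by
    intro i
    have := integrable_comp_mul U none (T1.mul contDiff_rr.contDiffOn ((gg_T1 hs h i).pd i))
    refine this.congr (Eventually.of_forall fun x => ?_)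
    simp only; ring
  have e2 : ∀ i, ∫ x, U x (some i) * gg s φ i x ∂(mu n) =
      - ∫ x, rr x * U x none * LR.pd i (gg s φ i) x ∂(mu n) := by
    intro i
    have h1 := weak_grad (gg_T1 hs h i) i hU
    rw [integral_add (hI i) (integrable_comp_mul U (some i) (gg_T1 hs h i))] at h1
    linarith
  rw [e1, integral_finsetSum _ fun i _ => integrable_comp_mul U (some i) (gg_T1 hs h i)]
  simp only [e2]
  rw [Finset.sum_neg_distrib, ← integral_finsetSum _ fun i _ => hI i]
  congr 1
  refine integral_congr_ae ?_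
  filter_upwards [ae_restrict_mem isOpen_Bn.measurableSet] with x hx
  rw [← Finset.mul_sum, div_gg hs hdv h.sm.contDiffOn hx]

theorem Lv_contDiffOn {s : MF n} (hs : SmM s) {f : V n → ℝ} (hf : ContDiffOn ℝ ∞ f (Bn n)) :
    ContDiffOn ℝ ∞ (Lv s f) (Bn n) := by
  unfold Lv
  exact ContDiffOn.sum fun i _ => ContDiffOn.sum fun j _ =>
    (hs i j).contDiffOn.mul (pd_contDiffOn isOpen_Bn (pd_contDiffOn isOpen_Bn hf j) i)

theorem Lv_T1 {s : MF n} (hs : SmM s) {φ : V n → ℝ} (h : T1 φ) : T1 (Lv s φ) := by
  unfold Lv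
  exact T1.sum _ fun i _ => T1.sum _ fun j _ => T1.mul (hs i j).contDiffOn ((h.pd j).pd i)

/-- Green's formula for smooth functions on the open ball -/
theorem green {s : MF n} (hs : SmM s) (hsy : ∀ x, (s x).IsSymm)
    (hdv : ∀ x ∈ Bn n, ∀ j, ∑ i, LR.pd i (fun y => s y i j) x = 0) {f : V n → ℝ}
    (hf : ContDiffOn ℝ ∞ f (Bn n)) {φ : V n → ℝ} (h : T1 φ) :
    ∫ x, f x * Lv s φ x = ∫ x, Lv s f x * φ x := by
  have hsym : ∀ x i j, s x i j = s x j i := fun x i j => by
    have := congrFun (congrFun (hsy x) j) i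
    simpa [Matrix.transpose_apply] using this
  have e1 : ∫ x, f x * Lv s φ x = ∑ i, ∫ x, f x * LR.pd i (gg s φ i) x := by
    rw [← integral_finsetSum _ fun i _ => (T1.mul hf ((gg_T1 hs h i).pd i)).integrable]
    refine integral_congr_ae (Eventually.of_forall fun x => ?_)
    simp only
    by_cases hx : x ∈ Bn n
    · rw [← Finset.mul_sum, div_gg hs hdv h.sm.contDiffOn hx]
    · rw [(Lv_T1 hs h).zero hx]
      simp [((gg_T1 hs h _).pd _).zero hx]
  have e2 : ∀ i, ∫ x, f x * LR.pd i (gg s φ i) x =
      - ∑ j, ∫ x, (s x i j * LR.pd i f x) * LR.pd j φ x := by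
    intro i
    rw [ibp hf (gg_T1 hs h i) i, ← integral_finsetSum]
    · congr 1
      refine integral_congr_ae (Eventually.of_forall fun x => ?_)
      simp only [gg, Finset.mul_sum]
      refine Finset.sum_congr rfl fun j _ => ?_
      ring
    · intro j _
      exact (T1.mul ((hs i j).contDiffOn.mul (pd_contDiffOn isOpen_Bn hf i)) (h.pd j)).integrable
  have e3 : ∀ i j, ∫ x, (s x i j * LR.pd i f x) * LR.pd j φ x =
      - ∫ x, LR.pd j (fun x => s x i j * LR.pd i f x) x * φ x := fun i j =>
    ibp ((hs i j).contDiffOn.mul (pd_contDiffOn isOpen_Bn hf i)) h j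
  have e4 : ∫ x, Lv s f x * φ x =
      ∑ i, ∑ j, ∫ x, LR.pd j (fun x => s x i j * LR.pd i f x) x * φ x := by
    have hT : ∀ i j, T1 fun x => LR.pd j (fun x => s x i j * LR.pd i f x) x * φ x := fun i j =>
      T1.mul (pd_contDiffOn isOpen_Bn ((hs i j).contDiffOn.mul (pd_contDiffOn isOpen_Bn hf i)) j) h
    simp only [← integral_finsetSum _ fun j _ => (hT _ j).integrable]
    rw [← integral_finsetSum _ fun i _ => (T1.sum _ fun j _ => hT i j).integrable]
    refine integral_congr_ae (Eventually.of_forall fun x => ?_)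
    simp only
    by_cases hx : x ∈ Bn n
    · rw [← div_gg hs hdv hf hx, Finset.sum_comm, Finset.sum_mul]
      refine Finset.sum_congr rfl fun j _ => ?_
      rw [← Finset.sum_mul]
      congr 1
      have a : gg s f j = fun y => ∑ i, s y i j * LR.pd i f y := by
        funext y
        simp only [gg]
        exact Finset.sum_congr rfl fun i _ => by rw [hsym y j i]
      rw [a]
      have hd : ∀ i, DifferentiableAt ℝ (fun y => s y i j * LR.pd i f y) x := fun i =>
        ((((hs i j).contDiffOn.mul (pd_contDiffOn isOpen_Bn hf i)) x hx).contDiffAt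
          (isOpen_Bn.mem_nhds hx)).differentiableAt (by simp)
      have := (HasFDerivAt.fun_sum (u := Finset.univ) fun i _ => (hd i).hasFDerivAt)
      unfold LR.pd at this ⊢
      rw [this.fderiv, _root_.sum_apply]
    · simp [h.zero hx]
  rw [e1, e4]
  refine Finset.sum_congr rfl fun i _ => ?_
  rw [e2, ← Finset.sum_neg_distrib]
  refine Finset.sum_congr rfl fun j _ => ?_
  rw [e3, neg_neg]

theorem rowDIR (hyp : RowHYP) : RowDIR := by
  intro n hn
  have hn0 : (0 : ℝ) < n := by exact_mod_cast (by omega : 0 < n)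
  refine ⟨25, 1 / (2 * n), by norm_num, by positivity, fun s hs F hF hFi => ?_⟩
  have hε : (1 : ℝ) / (2 * n) ≤ 1 := by
    have : (1 : ℝ) ≤ n := by exact_mod_cast (by omega : 1 ≤ n)
    rw [div_le_one (by positivity)]; linarith
  have hε' : (1 : ℝ) / (2 * n) * n ≤ 1 / 2 := by
    apply le_of_eq; field_simp
  have hb : Bd s (1 / (2 * n)) := by
    refine ⟨fun i j => (hs.sm i j).continuous, fun i j x => ?_⟩
    have := hs.cl i j 0 (by norm_num) x
    rwa [norm_iteratedFDeriv_zero, Real.norm_eq_abs] at this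
  -- the right hand side
  have hFm : AEStronglyMeasurable F (mu n) :=
    hF.continuousOn.aestronglyMeasurable isOpen_Bn.measurableSet
  have hF2 : MemLp F 2 (mu n) := (memLp_two_iff_integrable_sq hFm).2 hFi
  have hRm : MemLp (fun x => mk (-(F x * rr x)) (fun _ : Fin n => (0 : ℝ))) 2 (mu n) := by
    refine MemLp.of_le hF2 ?_ ?_
    · refine aesm_mk ?_ fun _ => aestronglyMeasurable_const
      exact (hFm.mul contDiff_rr.continuous.aestronglyMeasurable).neg
    · filter_upwards [ae_restrict_mem isOpen_Bn.measurableSet] with x hx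
      refine (norm_mk_le _ _).trans ?_
      simp only [abs_zero, Finset.sum_const_zero, add_zero, abs_neg, abs_mul, Real.norm_eq_abs]
      have h1 : |rr x| ≤ 1 := by
        rw [abs_of_pos (rr_pos hx)]
        linarith [rr_le x]
      calc |F x| * |rr x| ≤ |F x| * 1 := by gcongr
        _ = _ := mul_one _
  set R : LL n := hRm.toLp _ with hR
  have hRc : (R : V n → Ev n) =ᵐ[mu n] fun x => mk (-(F x * rr x)) (fun _ : Fin n => (0 : ℝ)) :=
    MemLp.coeFn_toLp _
  have hRn : ‖R‖ ^ 2 ≤ (1 / 4) * ∫ x in Bn n, F x ^ 2 := by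
    rw [norm_sq_LL, ← integral_const_mul]
    refine integral_mono_ae ?_ (hFi.const_mul _) ?_
    · have := (comp_memLp R none).integrable_sq
      have h2 : Integrable (fun x => ∑ i, R x (some i) ^ 2) (mu n) :=
        integrable_finsetSum _ fun i _ => (comp_memLp R (some i)).integrable_sq
      exact this.add h2
    · filter_upwards [hRc, ae_restrict_mem isOpen_Bn.measurableSet] with x hx hB
      rw [hx]
      simp only [mk_none, mk_some]
      have h1 := rr_pos hB
      have h2 := rr_le x
      have h3 : rr x ^ 2 ≤ 1 / 4 := by nlinarith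
      have h4 := _root_.sq_nonneg (F x)
      simp
      nlinarith
  obtain ⟨U, hUK, hsol, hUn⟩ := exists_sol (by omega) hb hε hε' R
  -- weak equation
  have hweak : ∀ φ : V n → ℝ, T1 φ →
      ∫ x, rr x * U x none * Lv s φ x ∂(mu n) = ∫ x, F x * φ x := by
    intro φ h
    have h1 := hsol (J h) (J_mem h)
    rw [weak_Lv hb hε hs.sm hs.dv hUK h] at h1
    have h2 : ⟪R, J h⟫ = - ∫ x, F x * φ x ∂(mu n) := by
      rw [L2.inner_def, ← integral_neg]
      refine integral_congr_ae ?_
      filter_upwards [hRc, J_coe h, ae_restrict_mem isOpen_Bn.measurableSet] with x hx hJ hB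
      rw [hx, hJ, inner_eq]
      have hr := (rr_pos hB).ne'
      simp only [jet, mk_none, mk_some]
      field_simp
      simp
    rw [h2, integral_mu_T1 (T1.mul hF h)] at h1
    linarith
  -- regularity
  set w₀ : V n → ℝ := (Bn n).indicator fun x => rr x * U x none with hw₀
  have hw₀m : AEStronglyMeasurable w₀ volume := by
    rw [hw₀, aestronglyMeasurable_indicator_iff isOpen_Bn.measurableSet]
    exact contDiff_rr.continuous.aestronglyMeasurable.mul (comp_memLp U none).1
  have hw₀2 : MemLp (fun x => rr x * U x none) 2 (mu n) := by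
    refine MemLp.of_le (comp_memLp U none) ?_ ?_
    · exact contDiff_rr.continuous.aestronglyMeasurable.mul (comp_memLp U none).1
    · filter_upwards [ae_restrict_mem isOpen_Bn.measurableSet] with x hx
      rw [norm_mul, Real.norm_eq_abs, abs_of_pos (rr_pos hx)]
      have := rr_le x
      have h2 := norm_nonneg (U x none)
      nlinarith
  have hw₀i : Integrable (fun x => w₀ x ^ 2) volume := by
    have h1 : (fun x => w₀ x ^ 2) = (Bn n).indicator fun x => (rr x * U x none) ^ 2 := by
      funext x
      rw [hw₀]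
      by_cases hx : x ∈ Bn n <;> simp [hx]
    rw [h1]
    exact (integrable_indicator_iff isOpen_Bn.measurableSet).2 hw₀2.integrable_sq
  obtain ⟨w', hw's, hw'e⟩ := hyp (Fin n) (V n) volume (Pi.basisFun ℝ (Fin n)) 1 (Bn n) isOpen_Bn
    (fun _ _ i j x => s x i j) (fun _ _ _ _ => 0) (fun _ _ _ => 0)
    (fun _ _ i j => (hs.sm i j).contDiffOn) (fun _ _ _ => contDiffOn_const)
    (fun _ _ => contDiffOn_const)
    (by
      intro z _ ξ hξ
      rw [Matrix.det_unique]
      simp only [Matrix.of_apply]
      have h1 := quad_ge hb hε' z ξ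
      have h2 : 0 < ∑ i, ξ i ^ 2 := by
        obtain ⟨i, hi⟩ := Function.ne_iff.1 hξ
        exact Finset.sum_pos' (fun i _ => _root_.sq_nonneg _) ⟨i, Finset.mem_univ i, by
          have : ξ i ≠ 0 := hi
          positivity⟩
      linarith)
    (fun _ => w₀) (fun _ => F) (fun _ => hw₀m) (fun _ k _ _ => hw₀i.integrableOn)
    (fun _ => hF)
    (by
      intro φ hφ
      have h : T1 (φ 0) := ⟨(hφ 0).1, (hφ 0).2.1, (hφ 0).2.2⟩
      simp only [Finset.univ_unique, Fin.default_eq_zero, Fin.isValue, Finset.sum_singleton,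
        op2_eq]
      rw [← hweak (φ 0) h]
      rw [← integral_indicator isOpen_Bn.measurableSet]
      refine integral_congr_ae (Eventually.of_forall fun x => ?_)
      simp only [hw₀]
      by_cases hx : x ∈ Bn n <;> simp [hx])
  have hw := hw's 0
  have hwe : ∀ᵐ x ∂(mu n), w' 0 x = rr x * U x none := by
    rw [ae_restrict_iff' isOpen_Bn.measurableSet]
    filter_upwards [hw'e 0] with x hx hB
    rw [hx hB, hw₀, indicator_of_mem hB]
  -- the equation
  have heq : ∀ x ∈ Bn n, Lv s (w' 0) x = F x := by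
    have h1 : ∀ᵐ x ∂(volume : Measure (V n)), x ∈ Bn n → Lv s (w' 0) x - F x = 0 := by
      refine isOpen_Bn.ae_eq_zero_of_integral_contDiff_smul_eq_zero ?_ ?_
      · exact ((Lv_contDiffOn hs.sm hw).sub hF).continuousOn.locallyIntegrableOn
          isOpen_Bn.measurableSet
      · intro g hg hgc hgs
        have hT : T1 g := ⟨hg, hgc, hgs⟩
        have a1 := green hs.sm hs.sy hs.dv hw hT
        have a2 : ∫ x, w' 0 x * Lv s g x = ∫ x, F x * g x := by
          rw [← hweak g hT, ← integral_mu_T1 (T1.mul hw (Lv_T1 hs.sm hT))]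
          refine integral_congr_ae ?_
          filter_upwards [hwe] with x hx
          rw [hx]
        have a3 : ∫ x, g x • (Lv s (w' 0) x - F x) =
            (∫ x, Lv s (w' 0) x * g x) - ∫ x, F x * g x := by
          rw [← integral_sub (T1.mul (Lv_contDiffOn hs.sm hw) hT).integrable
            (T1.mul hF hT).integrable]
          refine integral_congr_ae (Eventually.of_forall fun x => ?_)
          simp only [smul_eq_mul]; ring
        rw [a3, ← a1, a2, sub_self]
    have h2 : Lv s (w' 0) =ᵐ[volume.restrict (Bn n)] F := by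
      rw [EventuallyEq, ae_restrict_iff' isOpen_Bn.measurableSet]
      filter_upwards [h1] with x hx hB
      linarith [hx hB]
    exact Measure.eqOn_open_of_ae_eq h2 isOpen_Bn (Lv_contDiffOn hs.sm hw).continuousOn
      hF.continuousOn
  -- the gradient
  have hgr : ∀ i, ∀ᵐ x ∂(mu n), LR.pd i (w' 0) x = U x (some i) := by
    intro i
    rw [ae_restrict_iff' isOpen_Bn.measurableSet]
    have h1 : ∀ᵐ x ∂(volume : Measure (V n)), x ∈ Bn n →
        (LR.pd i (w' 0) x - U x (some i)) = 0 := by
      refine isOpen_Bn.ae_eq_zero_of_integral_contDiff_smul_eq_zero ?_ ?_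
      · refine LocallyIntegrableOn.sub ((pd_contDiffOn isOpen_Bn hw i).continuousOn.locallyIntegrableOn
          isOpen_Bn.measurableSet) ?_
        refine IntegrableOn.locallyIntegrableOn ?_
        have : IsFiniteMeasure (mu n) := by
          refine ⟨?_⟩
          rw [Measure.restrict_apply_univ]
          refine (Metric.isBounded_iff_subset_closedBall (0 : V n)).2 ⟨1, fun x hx => ?_⟩ |>.measure_lt_top
          rw [mem_closedBall_zero_iff, pi_norm_le_iff_of_nonneg zero_le_one]
          intro j
          have h1 : x j ^ 2 ≤ ∑ j, x j ^ 2 := Finset.single_le_sum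
            (f := fun j => x j ^ 2) (fun j _ => _root_.sq_nonneg _) (Finset.mem_univ j)
          have h2 : ∑ j, x j ^ 2 < 1 := hx
          rw [Real.norm_eq_abs]
          exact abs_le_one_iff_mul_self_le_one.2 (by nlinarith)
        exact (comp_memLp U (some i)).integrable one_le_two
      · intro g hg hgc hgs
        have hT : T1 g := ⟨hg, hgc, hgs⟩
        have a1 := ibp hw hT i
        have a2 := weak_grad hT i hUK
        have i1 : Integrable (fun x => rr x * U x none * LR.pd i g x) (mu n) := by
          have := integrable_comp_mul U none (T1.mul contDiff_rr.contDiffOn (hT.pd i))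
          refine this.congr (Eventually.of_forall fun x => ?_)
          simp only; ring
        have i2 := integrable_comp_mul U (some i) hT
        rw [integral_add i1 i2] at a2
        have a3 : ∫ x, w' 0 x * LR.pd i g x = ∫ x, rr x * U x none * LR.pd i g x ∂(mu n) := by
          rw [← integral_mu_T1 (T1.mul hw (hT.pd i))]
          refine integral_congr_ae ?_
          filter_upwards [hwe] with x hx
          rw [hx]
        have a4 : ∫ x, g x • (LR.pd i (w' 0) x - U x (some i)) =
            ∫ x, g x • (LR.pd i (w' 0) x - U x (some i)) ∂(mu n) := by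
          refine (setIntegral_eq_integral_of_forall_compl_eq_zero fun x hx => ?_).symm
          rw [hT.zero hx, zero_smul]
        have i3 : Integrable (fun x => LR.pd i (w' 0) x * g x) (mu n) :=
          (T1.mul (pd_contDiffOn isOpen_Bn hw i) hT).integrable.restrict
        have a5 : ∫ x, g x • (LR.pd i (w' 0) x - U x (some i)) ∂(mu n) =
            ∫ x, LR.pd i (w' 0) x * g x ∂(mu n) - ∫ x, U x (some i) * g x ∂(mu n) := by
          rw [← integral_sub i3 i2]
          refine integral_congr_ae (Eventually.of_forall fun x => ?_)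
          simp only [smul_eq_mul]; ring
        rw [a4, a5, integral_mu_T1 (T1.mul (pd_contDiffOn isOpen_Bn hw i) hT)]
        linarith
    filter_upwards [h1] with x hx hB
    linarith [hx hB]
  -- conclusion
  have hfin : (fun x => w' 0 x ^ 2 / rr x ^ 2 + ∑ i, LR.pd i (w' 0) x ^ 2) =ᵐ[mu n]
      fun x => U x none ^ 2 + ∑ i, U x (some i) ^ 2 := by
    filter_upwards [hwe, ae_all_iff.2 hgr, ae_restrict_mem isOpen_Bn.measurableSet] with x h1 h2 hB
    have hr := (rr_pos hB).ne'
    simp only [h1, h2]
    field_simp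
  have hint : Integrable (fun x => U x none ^ 2 + ∑ i, U x (some i) ^ 2) (mu n) :=
    (comp_memLp U none).integrable_sq.add
      (integrable_finsetSum _ fun i _ => (comp_memLp U (some i)).integrable_sq)
  refine ⟨w' 0, hw, heq, hint.congr hfin.symm, ?_⟩
  rw [integral_congr_ae hfin, ← norm_sq_LL]
  have h1 := norm_nonneg U
  have h2 := norm_nonneg R
  nlinarith

end Vale.Agent.P088.HY.DIR
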