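import Vale.Agent.P088.R2.H349.S4.SpecA
import Vale.Agent.P088.H129.URed

/-!
# P088, stage 4, row X-GI: the gauge identity
-/

open MeasureTheory Set
open scoped ContDiff Matrix

noncomputable section

namespace Vale.Agent.P088.S4.H420

open Vale.Agent.P088.LR Vale.Agent.P088.LR.U Vale.Agent.P088.LR.H158
open Vale.Agent.P088.LR.U.H129 (smC_pdm smC_add smC_sub smC_sum smC_smul pdm_add pdm_sub)
open Vale.Agent.P088.PJ

variable {n N : ℕ}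

theorem smC_TP {s : MF n} (hs : SmM s) {P : MC n N} (hP : SmC P) (i j : Fin n) :
    SmC (TP s P i j) := smC_smul (hs i j) hP

theorem smC_kp {s : MF n} (hs : SmM s) {G : Fin n → MC n N} (hG : ∀ i, SmC (G i)) (i : Fin n) :
    SmC (kp s G i) := smC_sum fun j _ => smC_smul (hs i j) (hG j)

theorem smC_Zt {s₁ s₂ : MF n} (h₁ : SmM s₁) (h₂ : SmM s₂) {P₁ P₂ : MC n N} (hP₁ : SmC P₁)
    (hP₂ : SmC P₂) (i j : Fin n) : SmC (Zt s₁ s₂ P₁ P₂ i j) :=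
  smC_sub (smC_TP h₂ hP₂ i j) (smC_TP h₁ hP₁ i j)

theorem pdm_sum {ι : Type*} {u : Finset ι} {P : ι → MC n N} (hP : ∀ j ∈ u, SmC (P j)) (i : Fin n)
    (x : V n) : pdm i (fun y => ∑ j ∈ u, P j y) x = ∑ j ∈ u, pdm i (P j) x := by
  ext a b
  rw [Matrix.sum_apply]
  simp only [pdm, Matrix.of_apply, Matrix.sum_apply]
  exact pd_sum (fun j hj => dfa (hP j hj a b) x) i

/-- The first identity at a point where the equations hold. -/
theorem gi_in {s₁ s₂ : MF n} (h₁ : SmM s₁) (h₂ : SmM s₂) {P₁ P₂ : MC n N} (hP₁ : SmC P₁)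
    (hP₂ : SmC P₂) {G₁ G₂ : Fin n → MC n N} {Y D : Fin n → MC n N} (hY : ∀ a, SmC (Y a))
    (hD : ∀ a, SmC (D a)) {Γ : Fin n → Fin n → MC n N} {x : V n}
    (li : ∀ l b, ∑ a, pdm l (Y a) x * Γ a b x = if l = b then 1 else 0)
    (e₁ : ∀ a, MoC (TP s₁ P₁) (kp s₁ G₁) (Y a) x = 0)
    (e₂ : ∀ a, MoC (TP s₂ P₂) (kp s₂ G₂) (fun x => Y a x + D a x) x = 0) (b : Fin n) :
    Qt s₁ s₂ G₁ G₂ b x = -∑ a,
    (∑ j, pdm j (fun y => ∑ i, Zt s₁ s₂ P₁ P₂ j i y * pdm i (Y a) y) x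
      + ∑ i, pdm i (fun y => ∑ j, TP s₂ P₂ i j y * pdm j (D a) y) x
      + ∑ i, kp s₂ G₂ i x * pdm i (D a) x) * Γ a b x := by
  have key : ∀ a, (∑ j, pdm j (fun y => ∑ i, Zt s₁ s₂ P₁ P₂ j i y * pdm i (Y a) y) x
      + ∑ i, pdm i (fun y => ∑ j, TP s₂ P₂ i j y * pdm j (D a) y) x
      + ∑ i, kp s₂ G₂ i x * pdm i (D a) x) = -∑ i, Qt s₁ s₂ G₁ G₂ i x * pdm i (Y a) x := by
    intro a
    have t1 : ∀ i, SmC fun y => ∑ j, TP s₁ P₁ i j y * pdm j (Y a) y := fun i =>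
      smC_sum fun j _ => SmC_mul (smC_TP h₁ hP₁ i j) (smC_pdm (hY a) j)
    have t2 : ∀ i, SmC fun y => ∑ j, TP s₂ P₂ i j y * pdm j (Y a) y := fun i =>
      smC_sum fun j _ => SmC_mul (smC_TP h₂ hP₂ i j) (smC_pdm (hY a) j)
    have t3 : ∀ i, SmC fun y => ∑ j, TP s₂ P₂ i j y * pdm j (D a) y := fun i =>
      smC_sum fun j _ => SmC_mul (smC_TP h₂ hP₂ i j) (smC_pdm (hD a) j)
    have z1 : ∀ j, pdm j (fun y => ∑ i, Zt s₁ s₂ P₁ P₂ j i y * pdm i (Y a) y) x =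
        pdm j (fun y => ∑ i, TP s₂ P₂ j i y * pdm i (Y a) y) x -
          pdm j (fun y => ∑ i, TP s₁ P₁ j i y * pdm i (Y a) y) x := by
      intro j
      rw [← pdm_sub (t2 j) (t1 j)]
      congr 1
      funext y
      rw [← Finset.sum_sub_distrib]
      exact Finset.sum_congr rfl fun i _ => by
        unfold Zt
        rw [sub_mul]
    have z2 : ∀ i, pdm i (fun y => ∑ j, TP s₂ P₂ i j y * pdm j (fun x => Y a x + D a x) y) x =
        pdm i (fun y => ∑ j, TP s₂ P₂ i j y * pdm j (Y a) y) x +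
          pdm i (fun y => ∑ j, TP s₂ P₂ i j y * pdm j (D a) y) x := by
      intro i
      rw [← pdm_add (t2 i) (t3 i)]
      congr 1
      funext y
      rw [← Finset.sum_add_distrib]
      exact Finset.sum_congr rfl fun j _ => by
        rw [pdm_add (hY a) (hD a), mul_add]
    have z3 : ∀ i, kp s₂ G₂ i x * pdm i (fun x => Y a x + D a x) x =
        kp s₂ G₂ i x * pdm i (Y a) x + kp s₂ G₂ i x * pdm i (D a) x := fun i => by
      rw [pdm_add (hY a) (hD a), mul_add]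
    have z4 : ∀ i, Qt s₁ s₂ G₁ G₂ i x * pdm i (Y a) x =
        kp s₂ G₂ i x * pdm i (Y a) x - kp s₁ G₁ i x * pdm i (Y a) x := fun i => by
      unfold Qt
      rw [sub_mul]
    have f1 := e₁ a
    have f2 := e₂ a
    unfold MoC at f1 f2
    simp only [z2, z3, Finset.sum_add_distrib] at f2
    simp only [z1, z4, Finset.sum_sub_distrib]
    have f3 := f2.trans f1.symm
    rw [← sub_eq_zero] at f3 ⊢
    rw [← f3]
    abel
  have k2 : ∑ a, (∑ i, Qt s₁ s₂ G₁ G₂ i x * pdm i (Y a) x) * Γ a b x = Qt s₁ s₂ G₁ G₂ b x := by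
    calc ∑ a, (∑ i, Qt s₁ s₂ G₁ G₂ i x * pdm i (Y a) x) * Γ a b x
        = ∑ i, Qt s₁ s₂ G₁ G₂ i x * ∑ a, pdm i (Y a) x * Γ a b x := by
          simp only [Finset.sum_mul, Finset.mul_sum, mul_assoc]
          exact Finset.sum_comm
      _ = Qt s₁ s₂ G₁ G₂ b x := by
          simp only [li, mul_ite, mul_one, mul_zero, Finset.sum_ite_eq', Finset.mem_univ, if_true]
  simp only [key, neg_mul, Finset.sum_neg_distrib, neg_neg, k2]

/-- The real part of the component `(j₀, j₀)` of a skew Hermitian matrix. -/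
theorem re_skew {A : Matrix (Fin N) (Fin N) ℂ} (h : Aᴴ = -A) (j : Fin N) : (A j j).re = 0 := by
  have h1 := congrFun (congrFun h j) j
  rw [Matrix.conjTranspose_apply, Matrix.neg_apply] at h1
  have h2 := congrArg Complex.re h1
  rw [Complex.neg_re, Complex.star_def, Complex.conj_re] at h2
  linarith

theorem kp_skew {s : MF n} {G : Fin n → MC n N} (hG : ∀ i x, (G i x)ᴴ = -G i x) (i : Fin n)
    (x : V n) : (kp s G i x)ᴴ = -kp s G i x := by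
  unfold kp
  rw [Matrix.conjTranspose_sum, ← Finset.sum_neg_distrib]
  refine Finset.sum_congr rfl fun j _ => ?_
  rw [Matrix.conjTranspose_smul, hG, smul_neg, Complex.star_def, Complex.conj_ofReal]

theorem pd_re {A : MC n N} (hA : SmC A) (j₀ : Fin N) (i : Fin n) (x : V n) :
    pd i (fun y => (A y j₀ j₀).re) x = (pdm i A x j₀ j₀).re :=
  pd_clm Complex.reCLM (dfa (hA _ _) x) i

theorem re_sum_app (f : Fin n → Matrix (Fin N) (Fin N) ℂ) (j : Fin N) :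
    ∑ i, (f i j j).re = ((∑ i, f i) j j).re := by
  rw [Matrix.sum_apply, Complex.re_sum]

theorem alg {A1 A2 S1 S2 S3 B1 B2 Q : Matrix (Fin N) (Fin N) ℂ} {j : Fin N} (h1 : A1 = S1 + B1)
    (h2 : A2 = S2 + B2) (h3 : Q = -(S1 + S2 + S3)) (h4 : (Q j j).re = 0) :
    (A1 j j).re + (A2 j j).re = (B1 j j).re + (B2 j j).re - (S3 j j).re := by
  subst h1 h2 h3
  simp only [Matrix.neg_apply, Matrix.add_apply, Complex.neg_re, Complex.add_re] at h4 ⊢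
  linarith

/-- The second identity from the first one. -/
theorem gi_two {s₁ s₂ : MF n} (h₁ : SmM s₁) (h₂ : SmM s₂) {P₁ P₂ : MC n N} (hP₁ : SmC P₁)
    (hP₂ : SmC P₂) {G₁ G₂ : Fin n → MC n N} (k₁ : ∀ i x, (G₁ i x)ᴴ = -G₁ i x)
    (k₂ : ∀ i x, (G₂ i x)ᴴ = -G₂ i x) {Y D : Fin n → MC n N} (hY : ∀ a, SmC (Y a))
    (hD : ∀ a, SmC (D a)) {Γ : Fin n → Fin n → MC n N} (hΓ : ∀ a b, SmC (Γ a b))
    (li : ∀ l b x, ∑ a, pdm l (Y a) x * Γ a b x = if l = b then 1 else 0) {x : V n} {b : Fin n}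
    (e : Qt s₁ s₂ G₁ G₂ b x = -∑ a,
    (∑ j, pdm j (fun y => ∑ i, Zt s₁ s₂ P₁ P₂ j i y * pdm i (Y a) y) x
      + ∑ i, pdm i (fun y => ∑ j, TP s₂ P₂ i j y * pdm j (D a) y) x
      + ∑ i, kp s₂ G₂ i x * pdm i (D a) x) * Γ a b x) (j₀ : Fin N) :
    ∑ j, pd j (fun y => (Zt s₁ s₂ P₁ P₂ j b y j₀ j₀).re) x
      + ∑ i, pd i (fun y => ((∑ j, ∑ a, TP s₂ P₂ i j y * pdm j (D a) y * Γ a b y) j₀ j₀).re) x =
    ((∑ i, ∑ j, ∑ a, Zt s₁ s₂ P₁ P₂ j i x * pdm i (Y a) x * pdm j (Γ a b) x) j₀ j₀).re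
      + ((∑ i, ∑ j, ∑ a, TP s₂ P₂ i j x * pdm j (D a) x * pdm i (Γ a b) x) j₀ j₀).re
      - ((∑ i, ∑ a, kp s₂ G₂ i x * pdm i (D a) x * Γ a b x) j₀ j₀).re := by
  have sZ : ∀ j i, SmC (Zt s₁ s₂ P₁ P₂ j i) := fun j i => smC_Zt h₁ h₂ hP₁ hP₂ j i
  have sT : ∀ i j, SmC (TP s₂ P₂ i j) := fun i j => smC_TP h₂ hP₂ i j
  have u1 : ∀ j a, SmC fun y => ∑ i, Zt s₁ s₂ P₁ P₂ j i y * pdm i (Y a) y := fun j a =>
    smC_sum fun i _ => SmC_mul (sZ j i) (smC_pdm (hY a) i)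
  have u2 : ∀ i a, SmC fun y => ∑ j, TP s₂ P₂ i j y * pdm j (D a) y := fun i a =>
    smC_sum fun j _ => SmC_mul (sT i j) (smC_pdm (hD a) j)
  -- `Z_jb = ∑ Z_ji ∂_i Y_a Γ_ab`
  have v1 : ∀ j, (fun y => ∑ a, (∑ i, Zt s₁ s₂ P₁ P₂ j i y * pdm i (Y a) y) * Γ a b y) =
      Zt s₁ s₂ P₁ P₂ j b := by
    intro j
    funext y
    calc ∑ a, (∑ i, Zt s₁ s₂ P₁ P₂ j i y * pdm i (Y a) y) * Γ a b y
        = ∑ i, Zt s₁ s₂ P₁ P₂ j i y * ∑ a, pdm i (Y a) y * Γ a b y := by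
          simp only [Finset.sum_mul, Finset.mul_sum, mul_assoc]
          exact Finset.sum_comm
      _ = Zt s₁ s₂ P₁ P₂ j b y := by
          simp only [li, mul_ite, mul_one, mul_zero, Finset.sum_ite_eq', Finset.mem_univ, if_true]
  have v2 : ∀ i, (fun y => ∑ j, ∑ a, TP s₂ P₂ i j y * pdm j (D a) y * Γ a b y) =
      fun y => ∑ a, (∑ j, TP s₂ P₂ i j y * pdm j (D a) y) * Γ a b y := by
    intro i
    funext y
    rw [Finset.sum_comm]
    exact Finset.sum_congr rfl fun a _ => by rw [Finset.sum_mul]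
  have w1 : ∀ j, pdm j (Zt s₁ s₂ P₁ P₂ j b) x =
      ∑ a, pdm j (fun y => ∑ i, Zt s₁ s₂ P₁ P₂ j i y * pdm i (Y a) y) x * Γ a b x
        + ∑ a, (∑ i, Zt s₁ s₂ P₁ P₂ j i x * pdm i (Y a) x) * pdm j (Γ a b) x := by
    intro j
    rw [← v1 j, pdm_sum fun a _ => SmC_mul (u1 j a) (hΓ a b), ← Finset.sum_add_distrib]
    exact Finset.sum_congr rfl fun a _ => pdm_mul (u1 j a) (hΓ a b) j x
  have w2 : ∀ i, pdm i (fun y => ∑ j, ∑ a, TP s₂ P₂ i j y * pdm j (D a) y * Γ a b y) x =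
      ∑ a, pdm i (fun y => ∑ j, TP s₂ P₂ i j y * pdm j (D a) y) x * Γ a b x
        + ∑ a, (∑ j, TP s₂ P₂ i j x * pdm j (D a) x) * pdm i (Γ a b) x := by
    intro i
    rw [v2 i, pdm_sum fun a _ => SmC_mul (u2 i a) (hΓ a b), ← Finset.sum_add_distrib]
    exact Finset.sum_congr rfl fun a _ => pdm_mul (u2 i a) (hΓ a b) i x
  have sv : ∀ i, SmC fun y => ∑ j, ∑ a, TP s₂ P₂ i j y * pdm j (D a) y * Γ a b y := fun i =>
    smC_sum fun j _ => smC_sum fun a _ => SmC_mul (SmC_mul (sT i j) (smC_pdm (hD a) j)) (hΓ a b)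
  have r1 : ∀ j, pd j (fun y => (Zt s₁ s₂ P₁ P₂ j b y j₀ j₀).re) x =
      (pdm j (Zt s₁ s₂ P₁ P₂ j b) x j₀ j₀).re := fun j => pd_re (sZ j b) j₀ j x
  have r2 : ∀ i, pd i (fun y =>
      ((∑ j, ∑ a, TP s₂ P₂ i j y * pdm j (D a) y * Γ a b y) j₀ j₀).re) x =
      (pdm i (fun y => ∑ j, ∑ a, TP s₂ P₂ i j y * pdm j (D a) y * Γ a b y) x j₀ j₀).re :=
    fun i => pd_re (sv i) j₀ i x
  have q0 : ((Qt s₁ s₂ G₁ G₂ b x) j₀ j₀).re = 0 := by
    refine re_skew ?_ j₀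
    unfold Qt
    rw [Matrix.conjTranspose_sub, kp_skew k₁, kp_skew k₂]
    abel
  have x1 : ∑ i, ∑ j, ∑ a, Zt s₁ s₂ P₁ P₂ j i x * pdm i (Y a) x * pdm j (Γ a b) x =
      ∑ j, ∑ a, (∑ i, Zt s₁ s₂ P₁ P₂ j i x * pdm i (Y a) x) * pdm j (Γ a b) x := by
    rw [Finset.sum_comm]
    refine Finset.sum_congr rfl fun j _ => ?_
    rw [Finset.sum_comm]
    exact Finset.sum_congr rfl fun a _ => by rw [Finset.sum_mul]
  have x2 : ∑ i, ∑ j, ∑ a, TP s₂ P₂ i j x * pdm j (D a) x * pdm i (Γ a b) x =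
      ∑ i, ∑ a, (∑ j, TP s₂ P₂ i j x * pdm j (D a) x) * pdm i (Γ a b) x := by
    refine Finset.sum_congr rfl fun i _ => ?_
    rw [Finset.sum_comm]
    exact Finset.sum_congr rfl fun a _ => by rw [Finset.sum_mul]
  have x3 : ∑ a, (∑ j, pdm j (fun y => ∑ i, Zt s₁ s₂ P₁ P₂ j i y * pdm i (Y a) y) x
      + ∑ i, pdm i (fun y => ∑ j, TP s₂ P₂ i j y * pdm j (D a) y) x
      + ∑ i, kp s₂ G₂ i x * pdm i (D a) x) * Γ a b x =
      (∑ j, ∑ a, pdm j (fun y => ∑ i, Zt s₁ s₂ P₁ P₂ j i y * pdm i (Y a) y) x * Γ a b x)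
      + (∑ i, ∑ a, pdm i (fun y => ∑ j, TP s₂ P₂ i j y * pdm j (D a) y) x * Γ a b x)
      + ∑ i, ∑ a, kp s₂ G₂ i x * pdm i (D a) x * Γ a b x := by
    rw [Finset.sum_congr rfl fun a _ => by rw [add_mul, add_mul, Finset.sum_mul, Finset.sum_mul,
      Finset.sum_mul], Finset.sum_add_distrib, Finset.sum_add_distrib, Finset.sum_comm,
      Finset.sum_comm (f := fun a i => pdm i (fun y => ∑ j, TP s₂ P₂ i j y * pdm j (D a) y) x *
        Γ a b x), Finset.sum_comm (f := fun a i => kp s₂ G₂ i x * pdm i (D a) x * Γ a b x)]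
  rw [Finset.sum_congr rfl fun j _ => r1 j, Finset.sum_congr rfl fun i _ => r2 i, re_sum_app,
    re_sum_app]
  refine alg ?_ ?_ (e.trans (congrArg Neg.neg x3)) q0
  · rw [Finset.sum_congr rfl fun j _ => w1 j, Finset.sum_add_distrib, x1]
  · rw [Finset.sum_congr rfl fun i _ => w2 i, Finset.sum_add_distrib, x2]

theorem rowXGI : RowXGI := by
  intro n N
  refine ⟨0, 1, one_pos, ?_⟩
  intro O K j₀ s₁ s₂ P₁ P₂ G₁ G₂ β Y D R Γ I
  have first : ∀ b, ∀ x ∈ O, Qt s₁ s₂ G₁ G₂ b x = -∑ a,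
    (∑ j, pdm j (fun y => ∑ i, Zt s₁ s₂ P₁ P₂ j i y * pdm i (Y a) y) x
      + ∑ i, pdm i (fun y => ∑ j, TP s₂ P₂ i j y * pdm j (D a) y) x
      + ∑ i, kp s₂ G₂ i x * pdm i (D a) x) * Γ a b x := by
    intro b x hx
    by_cases hK : x ∈ K
    · exact gi_in R.d₁.ss R.d₂.ss R.d₁.sP R.d₂.sP R.sY R.sD (fun l b => I.li l b x)
        (fun a => R.hY a x ⟨hx, hK⟩) (fun a => R.gi a x ⟨hx, hK⟩) b
    · have hop : IsOpen (O \ K) := R.op.sdiff R.cl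
      have hm : x ∈ O \ K := ⟨hx, hK⟩
      have z0 : ∀ y ∈ O \ K, ∀ i j, Zt s₁ s₂ P₁ P₂ i j y = 0 := by
        intro y hy i j
        unfold Zt TP
        rw [R.os y hy.1 hy.2, R.oP y hy.1 hy.2, sub_self]
      have q0 : Qt s₁ s₂ G₁ G₂ b x = 0 := by
        unfold Qt kp
        simp only [R.os x hx hK, fun i => R.oG i x hx hK, sub_self]
      have dD : ∀ y ∈ O \ K, ∀ j a, pdm j (D a) y = 0 := by
        intro y hy j a
        rw [pdm_congr hop (P := D a) (Q := fun _ => 0) (fun w hw => R.oD a w hw.1 hw.2) hy j,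
          pdm_const]
      have t1 : ∀ a j, pdm j (fun y => ∑ i, Zt s₁ s₂ P₁ P₂ j i y * pdm i (Y a) y) x = 0 := by
        intro a j
        rw [pdm_congr hop (Q := fun _ => 0) (fun w hw => ?_) hm j, pdm_const]
        exact Finset.sum_eq_zero fun i _ => by rw [z0 w hw, zero_mul]
      have t2 : ∀ a i, pdm i (fun y => ∑ j, TP s₂ P₂ i j y * pdm j (D a) y) x = 0 := by
        intro a i
        rw [pdm_congr hop (Q := fun _ => 0) (fun w hw => ?_) hm i, pdm_const]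
        exact Finset.sum_eq_zero fun j _ => by rw [dD w hw, mul_zero]
      simp only [q0, t1, t2, dD x hm, mul_zero, Finset.sum_const_zero, add_zero, zero_mul,
        neg_zero]
  exact ⟨first, fun b x hx => gi_two R.d₁.ss R.d₂.ss R.d₁.sP R.d₂.sP R.d₁.hG R.d₂.hG R.sY R.sD
    I.sm I.li (first b x hx) j₀⟩

end Vale.Agent.P088.S4.H420

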