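import Vale.Agent.P088.R2.H420.Calc

/-!
# P088, row DIR: weak solution of the Dirichlet problem (Lax-Milgram)
-/

open MeasureTheory Set Filter Topology
open scoped ContDiff Matrix RealInnerProductSpace

noncomputable section

namespace Vale.Agent.P088.HY.DIR

open Vale.Agent.P088.LR

variable {n : ℕ}

/-- values `(a, b_1, ..., b_n)` -/
abbrev Ev (n : ℕ) := EuclideanSpace ℝ (Option (Fin n))

def mk (a : ℝ) (b : Fin n → ℝ) : Ev n := WithLp.toLp 2 (fun o => o.elim a b)

@[simp] theorem mk_none (a : ℝ) (b : Fin n → ℝ) : mk a b none = a := rfl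
@[simp] theorem mk_some (a : ℝ) (b : Fin n → ℝ) (i : Fin n) : mk a b (some i) = b i := rfl

theorem inner_eq (v w : Ev n) : ⟪v, w⟫ = v none * w none + ∑ i, v (some i) * w (some i) := by
  rw [PiLp.inner_apply, Fintype.sum_option]
  simp [mul_comm]

theorem norm_sq_eq (v : Ev n) : ‖v‖ ^ 2 = v none ^ 2 + ∑ i, v (some i) ^ 2 := by
  rw [← real_inner_self_eq_norm_sq, inner_eq]
  simp [pow_two]

theorem abs_none_le (v : Ev n) : |v none| ≤ ‖v‖ := by
  refine abs_le_of_sq_le_sq ?_ (norm_nonneg _)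
  rw [norm_sq_eq]
  have : 0 ≤ ∑ i, v (some i) ^ 2 := Finset.sum_nonneg fun i _ => _root_.sq_nonneg _
  linarith

theorem abs_some_le (v : Ev n) (i : Fin n) : |v (some i)| ≤ ‖v‖ := by
  refine abs_le_of_sq_le_sq ?_ (norm_nonneg _)
  rw [norm_sq_eq]
  have := Finset.single_le_sum (f := fun i => v (some i) ^ 2)
    (fun i _ => _root_.sq_nonneg _) (Finset.mem_univ i)
  have h2 := _root_.sq_nonneg (v none)
  simp only at this
  linarith

theorem norm_mk_le (a : ℝ) (b : Fin n → ℝ) : ‖mk a b‖ ≤ |a| + ∑ i, |b i| := by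
  have h0 : 0 ≤ ∑ i, |b i| := Finset.sum_nonneg fun i _ => abs_nonneg _
  refine abs_le_of_sq_le_sq' ?_ (by positivity) |>.2
  rw [norm_sq_eq]
  simp only [mk_none, mk_some]
  have h1 : ∑ i, b i ^ 2 ≤ (∑ i, |b i|) ^ 2 := by
    rw [pow_two, Finset.sum_mul]
    refine Finset.sum_le_sum fun i _ => ?_
    have h3 := Finset.single_le_sum (f := fun i => |b i|)
      (fun i _ => abs_nonneg _) (Finset.mem_univ i)
    calc b i ^ 2 = |b i| * |b i| := by rw [← pow_two, sq_abs]
      _ ≤ _ := mul_le_mul_of_nonneg_left h3 (abs_nonneg _)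
  have h2 : a ^ 2 = |a| ^ 2 := (sq_abs a).symm
  nlinarith [mul_nonneg (abs_nonneg a) h0]

theorem continuous_mk {X : Type*} [TopologicalSpace X] {a : X → ℝ} {b : X → Fin n → ℝ}
    (ha : Continuous a) (hb : ∀ i, Continuous fun x => b x i) :
    Continuous fun x => mk (a x) (b x) := by
  refine (PiLp.continuous_toLp 2 _).comp (continuous_pi fun o => ?_)
  cases o with
  | none => exact ha
  | some i => exact hb i

theorem aesm_mk {X : Type*} [MeasurableSpace X] {μ : Measure X} {a : X → ℝ} {b : X → Fin n → ℝ}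
    (ha : AEStronglyMeasurable a μ) (hb : ∀ i, AEStronglyMeasurable (fun x => b x i) μ) :
    AEStronglyMeasurable (fun x => mk (a x) (b x)) μ := by
  refine (PiLp.continuous_toLp 2 _).comp_aestronglyMeasurable (f := fun x o => Option.elim o (a x) (b x)) ?_
  refine (aemeasurable_pi_lambda _ fun o => ?_).aestronglyMeasurable
  cases o with
  | none => exact ha.aemeasurable
  | some i => exact (hb i).aemeasurable

/-- the measure on the ball -/
abbrev mu (n : ℕ) : Measure (V n) := volume.restrict (Bn n)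

/-- the Hilbert space -/
abbrev LL (n : ℕ) := Lp (Ev n) 2 (mu n)

/-- `(φ / r, ∇ φ)` -/
def jet (φ : V n → ℝ) (x : V n) : Ev n := mk (φ x / rr x) fun i => LR.pd i φ x

theorem jet_zero {φ : V n → ℝ} (h : T1 φ) {x : V n} (hx : x ∉ Bn n) : jet φ x = 0 := by
  unfold jet
  ext o
  cases o with
  | none => simp [h.zero hx]
  | some i => simp [(h.pd i).zero hx]

theorem T1.div {φ : V n → ℝ} (h : T1 φ) : T1 fun x => φ x / rr x := by
  have h1 : T1 fun x => (rr x)⁻¹ * φ x := T1.mul contDiffOn_inv_rr h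
  convert h1 using 2
  ring

theorem jet_continuous {φ : V n → ℝ} (h : T1 φ) : Continuous (jet φ) :=
  continuous_mk h.div.sm.continuous fun i => (h.pd i).sm.continuous

theorem jet_cs {φ : V n → ℝ} (h : T1 φ) : HasCompactSupport (jet φ) := by
  refine HasCompactSupport.intro (K := tsupport φ ) h.cs fun x hx => ?_
  have h1 : φ x = 0 := image_eq_zero_of_notMem_tsupport hx
  have h2 : ∀ i, LR.pd i φ x = 0 := fun i =>
    image_eq_zero_of_notMem_tsupport fun h' => hx (tsupport_fderiv_apply_subset ℝ _ h')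
  unfold jet
  ext o
  cases o with
  | none => simp [h1]
  | some i => simp [h2]

theorem jet_memLp {φ : V n → ℝ} (h : T1 φ) : MemLp (jet φ) 2 (mu n) :=
  ((jet_continuous h).memLp_of_hasCompactSupport (jet_cs h))

/-- the element of `LL` of a test function -/
def J {φ : V n → ℝ} (h : T1 φ) : LL n := (jet_memLp h).toLp _

theorem J_coe {φ : V n → ℝ} (h : T1 φ) : (J h : V n → Ev n) =ᵐ[mu n] jet φ := MemLp.coeFn_toLp _

theorem pd_add {f g : V n → ℝ} (hf : ContDiff ℝ ∞ f) (hg : ContDiff ℝ ∞ g) (i : Fin n) (x : V n) :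
    LR.pd i (fun x => f x + g x) x = LR.pd i f x + LR.pd i g x := by
  unfold LR.pd
  have := ((hf.differentiable (by simp) x).hasFDerivAt.add
    (hg.differentiable (by simp) x).hasFDerivAt).fderiv
  have h2 : (fun x => f x + g x) = f + g := rfl
  rw [h2, this]; rfl

theorem pd_const_mul {f : V n → ℝ} (hf : ContDiff ℝ ∞ f) (c : ℝ) (i : Fin n) (x : V n) :
    LR.pd i (fun x => c * f x) x = c * LR.pd i f x := by
  unfold LR.pd
  have := ((hf.differentiable (by simp) x).hasFDerivAt.const_mul c).fderiv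
  rw [this]; rfl

/-- the submodule of jets of test functions -/
def M0 (n : ℕ) : Submodule ℝ (LL n) where
  carrier := {U | ∃ φ, ∃ h : T1 φ, U = J h}
  add_mem' := by
    rintro U U' ⟨φ, h, rfl⟩ ⟨ψ, g, rfl⟩
    refine ⟨_, h.add g, ?_⟩
    unfold J
    rw [← MemLp.toLp_add]
    refine MemLp.toLp_congr _ _ (Eventually.of_forall fun x => ?_)
    simp only [jet, Pi.add_apply]
    ext o
    cases o with
    | none => simp; ring
    | some i => simp [pd_add h.sm g.sm]
  zero_mem' := by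
    refine ⟨_, T1.zero_fun, ?_⟩
    unfold J
    rw [← MemLp.toLp_zero (MemLp.zero' (p := 2))]
    refine MemLp.toLp_congr _ _ (Eventually.of_forall fun x => ?_)
    simp only [jet]
    ext o
    cases o with
    | none => simp
    | some i => simp [LR.pd]
  smul_mem' := by
    rintro c U ⟨φ, h, rfl⟩
    refine ⟨_, h.const_mul c, ?_⟩
    unfold J
    rw [← MemLp.toLp_const_smul]
    refine MemLp.toLp_congr _ _ (Eventually.of_forall fun x => ?_)
    simp only [jet, Pi.smul_apply]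
    ext o
    cases o with
    | none => simp; ring
    | some i => simp [pd_const_mul h.sm]

/-- the energy space -/
def KK (n : ℕ) : Submodule ℝ (LL n) := (M0 n).topologicalClosure

instance : CompleteSpace (KK n) := (Submodule.isClosed_topologicalClosure _).completeSpace_coe

theorem J_mem {φ : V n → ℝ} (h : T1 φ) : J h ∈ KK n :=
  Submodule.le_topologicalClosure _ ⟨φ, h, rfl⟩

/-- a closed condition on jets of test functions holds on `KK` -/
theorem KK_induction {P : LL n → Prop} (hc : IsClosed {U | P U})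
    (h : ∀ φ, ∀ h : T1 φ, P (J h)) {U : LL n} (hU : U ∈ KK n) : P U := by
  have h1 : (M0 n : Set (LL n)) ⊆ {U | P U} := by
    rintro U ⟨φ, hφ, rfl⟩
    exact h φ hφ
  have h2 : closure (M0 n : Set (LL n)) ⊆ {U | P U} := closure_minimal h1 hc
  exact h2 hU

/-- bounded continuous coefficients -/
structure Bd (s : MF n) (ε : ℝ) : Prop where
  ct : ∀ i j, Continuous fun x => s x i j
  bd : ∀ i j x, |s x i j - (1 : Matrix (Fin n) (Fin n) ℝ) i j| ≤ ε

theorem Bd.abs_le {s : MF n} {ε : ℝ} (h : Bd s ε) (hε : ε ≤ 1) (i j : Fin n) (x : V n) :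
    |s x i j| ≤ 2 := by
  have h1 := h.bd i j x
  have h2 : |(1 : Matrix (Fin n) (Fin n) ℝ) i j| ≤ 1 := by
    rw [Matrix.one_apply]; split_ifs <;> simp
  calc |s x i j| = |(s x i j - (1 : Matrix (Fin n) (Fin n) ℝ) i j) +
        (1 : Matrix (Fin n) (Fin n) ℝ) i j| := by ring_nf
    _ ≤ _ := abs_add_le _ _
    _ ≤ 2 := by linarith

/-- `(a, b) ↦ (0, s b)` -/
def mt (s : MF n) (x : V n) (v : Ev n) : Ev n := mk 0 fun j => ∑ i, s x i j * v (some i)

theorem norm_mt_le {s : MF n} {ε : ℝ} (h : Bd s ε) (hε : ε ≤ 1) (x : V n) (v : Ev n) :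
    ‖mt s x v‖ ≤ (2 * n ^ 2) * ‖v‖ := by
  unfold mt
  refine (norm_mk_le _ _).trans ?_
  rw [abs_zero, zero_add]
  have h1 : ∀ j : Fin n, |∑ i, s x i j * v (some i)| ≤ n * (2 * ‖v‖) := by
    intro j
    refine (Finset.abs_sum_le_sum_abs _ _).trans ?_
    have : ∀ i ∈ (Finset.univ : Finset (Fin n)), |s x i j * v (some i)| ≤ 2 * ‖v‖ := by
      intro i _
      rw [abs_mul]
      exact mul_le_mul (h.abs_le hε i j x) (abs_some_le v i) (abs_nonneg _) (by norm_num)
    refine (Finset.sum_le_sum this).trans ?_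
    simp
  refine (Finset.sum_le_sum fun j _ => h1 j).trans ?_
  simp
  apply le_of_eq; ring

theorem mt_memLp {s : MF n} {ε : ℝ} (h : Bd s ε) (hε : ε ≤ 1) (U : LL n) :
    MemLp (fun x => mt s x (U x)) 2 (mu n) := by
  refine MemLp.of_le_mul (c := 2 * n ^ 2) (Lp.memLp U) ?_ (Eventually.of_forall fun x => norm_mt_le h hε x _)
  unfold mt
  refine aesm_mk aestronglyMeasurable_const fun j => ?_
  refine Finset.aestronglyMeasurable_fun_sum _ fun i _ => ?_
  refine (h.ct i j).aestronglyMeasurable.mul ?_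
  exact (EuclideanSpace.proj (𝕜 := ℝ) (some i)).continuous.comp_aestronglyMeasurable
    (Lp.aestronglyMeasurable U)

/-- multiplication with `s` -/
def TT {s : MF n} {ε : ℝ} (h : Bd s ε) (hε : ε ≤ 1) : LL n →L[ℝ] LL n :=
  LinearMap.mkContinuous
    { toFun := fun U => (mt_memLp h hε U).toLp _
      map_add' := by
        intro U W
        rw [← MemLp.toLp_add]
        refine MemLp.toLp_congr _ _ ?_
        filter_upwards [Lp.coeFn_add U W] with x hx
        simp only [Pi.add_apply, hx]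
        ext o
        cases o with
        | none => simp [mt]
        | some j => simp [mt, mul_add, Finset.sum_add_distrib]
      map_smul' := by
        intro c U
        rw [RingHom.id_apply, ← MemLp.toLp_const_smul]
        refine MemLp.toLp_congr _ _ ?_
        filter_upwards [Lp.coeFn_smul c U] with x hx
        simp only [Pi.smul_apply, hx]
        ext o
        cases o with
        | none => simp [mt]
        | some j =>
          simp only [mt, mk_some, PiLp.smul_apply, smul_eq_mul, Finset.mul_sum]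
          refine Finset.sum_congr rfl fun i _ => ?_
          ring }
    (2 * n ^ 2) (by
      intro U
      refine Lp.norm_le_mul_norm_of_ae_le_mul ?_
      filter_upwards [MemLp.coeFn_toLp (mt_memLp h hε U)] with x hx
      simp only [LinearMap.coe_mk, AddHom.coe_mk]
      rw [hx]
      exact norm_mt_le h hε x _)

theorem TT_coe {s : MF n} {ε : ℝ} (h : Bd s ε) (hε : ε ≤ 1) (U : LL n) :
    (TT h hε U : V n → Ev n) =ᵐ[mu n] fun x => mt s x (U x) := MemLp.coeFn_toLp (mt_memLp h hε U)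

theorem inner_mt (s : MF n) (x : V n) (v w : Ev n) :
    ⟪mt s x v, w⟫ = ∑ i, ∑ j, s x i j * v (some i) * w (some j) := by
  rw [inner_eq]
  simp only [mt, mk_none, mk_some, zero_mul, zero_add, Finset.sum_mul]
  rw [Finset.sum_comm]

theorem inner_TT {s : MF n} {ε : ℝ} (h : Bd s ε) (hε : ε ≤ 1) (U W : LL n) :
    ⟪TT h hε U, W⟫ = ∫ x, ∑ i, ∑ j, s x i j * U x (some i) * W x (some j) ∂(mu n) := by
  rw [L2.inner_def]
  refine integral_congr_ae ?_
  filter_upwards [TT_coe h hε U] with x hx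
  rw [hx, inner_mt]

theorem quad_ge {s : MF n} {ε : ℝ} (h : Bd s ε) (hε : ε * n ≤ 1 / 2) (x : V n) (ξ : Fin n → ℝ) :
    (1 / 2) * ∑ i, ξ i ^ 2 ≤ ∑ i, ∑ j, s x i j * ξ i * ξ j := by
  have h1 : ∑ i, ∑ j, s x i j * ξ i * ξ j = ∑ i, ξ i ^ 2 +
      ∑ i, ∑ j, (s x i j - (1 : Matrix (Fin n) (Fin n) ℝ) i j) * ξ i * ξ j := by
    have h2 : ∑ i, ξ i ^ 2 = ∑ i, ∑ j, (1 : Matrix (Fin n) (Fin n) ℝ) i j * ξ i * ξ j := by
      refine Finset.sum_congr rfl fun i _ => ?_
      simp [Matrix.one_apply, pow_two]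
    rw [h2, ← Finset.sum_add_distrib]
    refine Finset.sum_congr rfl fun i _ => ?_
    rw [← Finset.sum_add_distrib]
    refine Finset.sum_congr rfl fun j _ => ?_
    ring
  have hε0 : 0 ≤ ε ∨ n = 0 := by
    rcases Nat.eq_zero_or_pos n with h0 | h0
    · exact Or.inr h0
    · exact Or.inl ((abs_nonneg _).trans (h.bd ⟨0, h0⟩ ⟨0, h0⟩ x))
  rcases hε0 with hε0 | rfl
  swap
  · simp
  have h3 : |∑ i, ∑ j, (s x i j - (1 : Matrix (Fin n) (Fin n) ℝ) i j) * ξ i * ξ j| ≤
      ε * (∑ i, |ξ i|) ^ 2 := by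
    calc _ ≤ ∑ i, ∑ j, |(s x i j - (1 : Matrix (Fin n) (Fin n) ℝ) i j) * ξ i * ξ j| :=
        (Finset.abs_sum_le_sum_abs _ _).trans
          (Finset.sum_le_sum fun i _ => Finset.abs_sum_le_sum_abs _ _)
      _ ≤ ∑ i, ∑ j, ε * |ξ i| * |ξ j| := by
        refine Finset.sum_le_sum fun i _ => Finset.sum_le_sum fun j _ => ?_
        rw [abs_mul, abs_mul]
        gcongr
        exact h.bd i j x
      _ = ε * (∑ i, |ξ i|) ^ 2 := by
        rw [pow_two, Finset.sum_mul_sum, Finset.mul_sum]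
        refine Finset.sum_congr rfl fun i _ => ?_
        rw [Finset.mul_sum]
        refine Finset.sum_congr rfl fun j _ => ?_
        ring
  have h4 : (∑ i, |ξ i|) ^ 2 ≤ n * ∑ i, ξ i ^ 2 := by
    have := sq_sum_le_card_mul_sum_sq (s := (Finset.univ : Finset (Fin n))) (f := fun i => |ξ i|)
    simpa [sq_abs] using this
  have h5 : 0 ≤ ∑ i, ξ i ^ 2 := Finset.sum_nonneg fun i _ => _root_.sq_nonneg _
  rw [h1]
  have h6 := (abs_le.1 h3).1
  have h7 : ε * (∑ i, |ξ i|) ^ 2 ≤ ε * (n * ∑ i, ξ i ^ 2) := mul_le_mul_of_nonneg_left h4 hε0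
  nlinarith [mul_le_mul_of_nonneg_right hε h5]

theorem norm_sq_LL (U : LL n) : ‖U‖ ^ 2 =
    ∫ x, (U x none ^ 2 + ∑ i, U x (some i) ^ 2) ∂(mu n) := by
  rw [← real_inner_self_eq_norm_sq, L2.inner_def]
  refine integral_congr_ae (Eventually.of_forall fun x => ?_)
  simp only [real_inner_self_eq_norm_sq, norm_sq_eq]

theorem integral_mu_T1 {f : V n → ℝ} (h : T1 f) : ∫ x, f x ∂(mu n) = ∫ x, f x :=
  setIntegral_eq_integral_of_forall_compl_eq_zero fun x hx => h.zero hx

/-- coercivity on jets -/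
theorem coercive_J (hn : 2 ≤ n) {s : MF n} {ε : ℝ} (h : Bd s ε) (hε : ε ≤ 1)
    (hε' : ε * n ≤ 1 / 2) {φ : V n → ℝ} (hφ : T1 φ) :
    ‖J hφ‖ ^ 2 ≤ 10 * ⟪TT h hε (J hφ), J hφ⟫ := by
  have e1 : ‖J hφ‖ ^ 2 = ∫ x, ((φ x / rr x) ^ 2 + ∑ i, LR.pd i φ x ^ 2) ∂(mu n) := by
    rw [norm_sq_LL]
    refine integral_congr_ae ?_
    filter_upwards [J_coe hφ] with x hx
    rw [hx]; rfl
  have e2 : ⟪TT h hε (J hφ), J hφ⟫ =
      ∫ x, ∑ i, ∑ j, s x i j * LR.pd i φ x * LR.pd j φ x ∂(mu n) := by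
    rw [inner_TT]
    refine integral_congr_ae ?_
    filter_upwards [J_coe hφ] with x hx
    rw [hx]; rfl
  have hA : T1 fun x => (φ x / rr x) ^ 2 := by
    have := T1.mul hφ.div.sm.contDiffOn hφ.div
    simpa [pow_two] using this
  have hG : T1 fun x => ∑ i, LR.pd i φ x ^ 2 := by
    refine T1.sum _ fun i _ => ?_
    have := T1.mul (hφ.pd i).sm.contDiffOn (hφ.pd i)
    simpa [pow_two] using this
  have hS : Integrable (fun x => ∑ i, ∑ j, s x i j * LR.pd i φ x * LR.pd j φ x) (mu n) := by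
    refine Integrable.restrict ?_
    refine Continuous.integrable_of_hasCompactSupport ?_ ?_
    · refine continuous_finsetSum _ fun i _ => continuous_finsetSum _ fun j _ => ?_
      exact ((h.ct i j).mul (hφ.pd i).sm.continuous).mul (hφ.pd j).sm.continuous
    · refine HasCompactSupport.intro (K := tsupport φ) hφ.cs fun x hx => ?_
      have h2 : ∀ i, LR.pd i φ x = 0 := fun i =>
        image_eq_zero_of_notMem_tsupport fun h' => hx (tsupport_fderiv_apply_subset ℝ _ h')
      simp [h2]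
  rw [e1, e2, integral_add hA.integrable.restrict hG.integrable.restrict, integral_mu_T1 hA,
    integral_mu_T1 hG]
  have h1 := hardy hn hφ
  have h2 : (1 / 2) * ∫ x, ∑ i, LR.pd i φ x ^ 2 ≤
      ∫ x, ∑ i, ∑ j, s x i j * LR.pd i φ x * LR.pd j φ x ∂(mu n) := by
    rw [← integral_mu_T1 hG, ← integral_const_mul]
    exact integral_mono (hG.integrable.restrict.const_mul _) hS fun _ => quad_ge h hε' _ _
  linarith

theorem coercive_KK (hn : 2 ≤ n) {s : MF n} {ε : ℝ} (h : Bd s ε) (hε : ε ≤ 1)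
    (hε' : ε * n ≤ 1 / 2) {U : LL n} (hU : U ∈ KK n) :
    ‖U‖ ^ 2 ≤ 10 * ⟪TT h hε U, U⟫ := by
  refine KK_induction (P := fun U => ‖U‖ ^ 2 ≤ 10 * ⟪TT h hε U, U⟫) ?_ ?_ hU
  · refine isClosed_le (by fun_prop) ?_
    exact continuous_const.mul (((TT h hε).continuous).inner continuous_id)
  · intro φ hφ
    exact coercive_J hn h hε hε' hφ

/-- Lax-Milgram -/
theorem exists_sol (hn : 2 ≤ n) {s : MF n} {ε : ℝ} (h : Bd s ε) (hε : ε ≤ 1)
    (hε' : ε * n ≤ 1 / 2) (R : LL n) : ∃ U ∈ KK n, (∀ W ∈ KK n, ⟪TT h hε U, W⟫ = ⟪R, W⟫) ∧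
      ‖U‖ ≤ 10 * ‖R‖ := by
  set A : KK n →L[ℝ] KK n := ((KK n).orthogonalProjectionOnto.comp (TT h hε)).comp
    (KK n).subtypeL with hA
  set B : KK n →L[ℝ] KK n →L[ℝ] ℝ := (innerSL ℝ).comp A with hB
  have hBe : ∀ U W : KK n, B U W = ⟪TT h hε (U : LL n), (W : LL n)⟫ := by
    intro U W
    simp only [hB, hA, ContinuousLinearMap.comp_apply, innerSL_apply_apply]
    rw [← Submodule.inner_orthogonalProjectionOnto_eq_of_mem_right]
    rfl
  have hco : IsCoercive B := by
    refine ⟨1 / 10, by norm_num, fun U => ?_⟩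
    rw [hBe]
    have := coercive_KK hn h hε hε' U.2
    have h2 : ‖(U : LL n)‖ = ‖U‖ := rfl
    rw [h2] at this
    nlinarith
  set U := hco.continuousLinearEquivOfBilin.symm ((KK n).orthogonalProjectionOnto R) with hU
  have hsol : ∀ W ∈ KK n, ⟪TT h hε (U : LL n), W⟫ = ⟪R, W⟫ := by
    intro W hW
    have h1 := hco.continuousLinearEquivOfBilin_apply U ⟨W, hW⟩
    rw [hU, ContinuousLinearEquiv.apply_symm_apply, ← hU, hBe] at h1
    change ⟪TT h hε (U : LL n), W⟫ = ⟪R, W⟫
    refine h1.symm.trans ?_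
    exact Submodule.inner_orthogonalProjectionOnto_eq_of_mem_right (⟨W, hW⟩ : KK n) R
  refine ⟨U, U.2, hsol, ?_⟩
  have h1 := coercive_KK hn h hε hε' U.2
  rw [hsol _ U.2] at h1
  have h2 := real_inner_le_norm R (U : LL n)
  by_cases h0 : ‖(U : LL n)‖ = 0
  · rw [h0]; positivity
  · have h3 : 0 < ‖(U : LL n)‖ := lt_of_le_of_ne (norm_nonneg _) (Ne.symm h0)
    have h4 : ‖(U : LL n)‖ * ‖(U : LL n)‖ ≤ (10 * ‖R‖) * ‖(U : LL n)‖ := by nlinarith
    exact le_of_mul_le_mul_right h4 h3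

end Vale.Agent.P088.HY.DIR
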